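import Mathlib

/-! Module LIF: lifting of segments.  For `T = k η` (`k = 0, 1, 2, ...`, `η |y - Φ 0| < r`) there is a continuous lift on `[0,T]`
(as a function `ℝ → ℂ`, `ContinuousOn (Set.Icc 0 T)`); extend by `σ (γ t)`, `σ` the local section at the end point,
`ContinuousOn.if` / `ContinuousOn.union`. -/

open Complex ComplexConjugate
open scoped ContDiff

namespace P205T.U

theorem LIF_step (Φ : ℂ → ℂ) (r : ℝ)
    (hsec : ∀ z, ∃ σ : ℂ → ℂ, ContinuousOn σ (Metric.ball (Φ z) r) ∧ σ (Φ z) = z ∧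
      ∀ y ∈ Metric.ball (Φ z) r, Φ (σ y) = y) (y : ℂ) (η : ℝ) (hη : 0 < η)
    (hd : η * ‖y - Φ 0‖ < r) (k : ℕ) :
    ∃ g : ℝ → ℂ, Continuous g ∧ g 0 = 0 ∧
      ∀ t : ℝ, 0 ≤ t → t ≤ k * η → Φ (g t) = Φ 0 + (t : ℂ) * (y - Φ 0) := by
  induction k with
  | zero =>
    refine ⟨fun _ => 0, continuous_const, rfl, fun t h0 h1 => ?_⟩
    have : t = 0 := by
      rw [Nat.cast_zero, zero_mul] at h1
      linarith
    rw [this]
    simp
  | succ k ih =>
    obtain ⟨g, hg, hg0, hgt⟩ := ih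
    have hT0 : (0 : ℝ) ≤ k * η := by positivity
    have hT := hgt (k * η) hT0 le_rfl
    obtain ⟨σ, hσ, hσ0, hσb⟩ := hsec (g (k * η))
    have hmem : ∀ t : ℝ, k * η ≤ t → t ≤ k * η + η →
        Φ 0 + (t : ℂ) * (y - Φ 0) ∈ Metric.ball (Φ (g (k * η))) r := by
      intro t h1 h2
      rw [Metric.mem_ball, dist_eq_norm, hT]
      have e : Φ 0 + (t : ℂ) * (y - Φ 0) - (Φ 0 + ((k * η : ℝ) : ℂ) * (y - Φ 0)) =
          ((t - k * η : ℝ) : ℂ) * (y - Φ 0) := by
        push_cast
        ring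
      rw [e, norm_mul, Complex.norm_real, Real.norm_eq_abs, abs_of_nonneg (by linarith)]
      exact lt_of_le_of_lt (mul_le_mul_of_nonneg_right (by linarith) (norm_nonneg _)) hd
    set c : ℝ → ℝ := fun t => max (k * η) (min t (k * η + η)) with hc
    have hcc : Continuous c := continuous_const.max (continuous_id.min continuous_const)
    have hc1 : ∀ t, k * η ≤ c t := fun t => le_max_left _ _
    have hc2 : ∀ t, c t ≤ k * η + η := fun t =>
      max_le (by linarith) (min_le_right _ _)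
    have hcont : Continuous fun t : ℝ => σ (Φ 0 + (c t : ℂ) * (y - Φ 0)) := by
      refine hσ.comp_continuous ?_ (fun t => hmem _ (hc1 t) (hc2 t))
      exact continuous_const.add ((Complex.continuous_ofReal.comp hcc).mul continuous_const)
    refine ⟨fun t => if t ≤ k * η then g t else σ (Φ 0 + (c t : ℂ) * (y - Φ 0)),
      Continuous.if_le hg hcont continuous_id continuous_const ?_, ?_, ?_⟩
    · intro t ht
      have ht' : t = k * η := ht
      have hct : c t = k * η := by
        rw [hc]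
        simp only
        rw [ht', min_eq_left (by linarith), max_self]
      rw [hct, ht', ← hT, hσ0]
    · simp only [hT0, if_true, hg0]
    · intro t h0 h1
      by_cases h : t ≤ k * η
      · simp only [h, if_true]
        exact hgt t h0 h
      · simp only [h, if_false]
        have h2 : t ≤ k * η + η := by
          rw [Nat.cast_succ] at h1
          linarith
        have hct : c t = t := by
          rw [hc]
          simp only
          rw [min_eq_left h2, max_eq_right (not_le.1 h).le]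
        rw [hct]
        exact hσb _ (hmem t (not_le.1 h).le h2)

theorem seg_lift (Φ : ℂ → ℂ) (r : ℝ) (hr : 0 < r)
    (hsec : ∀ z, ∃ σ : ℂ → ℂ, ContinuousOn σ (Metric.ball (Φ z) r) ∧ σ (Φ z) = z ∧
      ∀ y ∈ Metric.ball (Φ z) r, Φ (σ y) = y) (y : ℂ) :
    ∃ g : C(unitInterval, ℂ), g 0 = 0 ∧ ∀ t : unitInterval, Φ (g t) = Φ 0 + (t : ℝ) * (y - Φ 0) := by
  obtain ⟨N, hN⟩ := exists_nat_gt (‖y - Φ 0‖ / r)
  have hN0 : (0 : ℝ) < (N : ℝ) + 1 := by positivity
  have hd : 1 / ((N : ℝ) + 1) * ‖y - Φ 0‖ < r := by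
    rw [div_lt_iff₀ hr] at hN
    rw [one_div, inv_mul_lt_iff₀ hN0]
    nlinarith
  obtain ⟨g, hg, hg0, hgt⟩ := LIF_step Φ r hsec y (1 / ((N : ℝ) + 1)) (by positivity) hd (N + 1)
  refine ⟨⟨fun t => g t, hg.comp continuous_subtype_val⟩, ?_, ?_⟩
  · exact hg0
  · intro t
    refine hgt t t.2.1 ?_
    have : ((N + 1 : ℕ) : ℝ) * (1 / ((N : ℝ) + 1)) = 1 := by
      push_cast
      field_simp
    rw [this]
    exact t.2.2

end P205T.U
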