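import Vale.Agent.P205U.Sect
import Vale.Agent.P205U.Lift
import Vale.Agent.P205T.GFlatAux

/-! Module GLO: an equivariant local diffeomorphism of the plane is a diffeomorphism with independent periods.
`IsLocalHomeomorph Φ` (inverse function theorem).  Lifts `g_y` of the segments from `Φ 0` to `y` (`seg_lift`);
`IsLocalHomeomorph.continuous_lift` (Mathlib.Topology.Homotopy.Lifting, `A = ℂ`) makes `(t,y) ↦ g_y t` continuous, so
`S y = g_y 1` is continuous, `Φ ∘ S = id`, `S (Φ 0) = 0`; `S ∘ Φ = id` by uniqueness of lifts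
(`IsSeparatedMap.eq_of_comp_eq`, `ℂ` connected).  Smooth inverse: `Homeomorph.contDiff_symm`.
Independence: if `c₁, c₂` are `ℝ`-dependent there is a nonzero real linear form `ℓ` with `ℓ c₁ = ℓ c₂ = 0`; then `ℓ ∘ Φ` is
periodic, hence bounded, contradiction with surjectivity. -/

open Complex ComplexConjugate
open scoped ContDiff

namespace P205T.U

theorem global_inverse (L : Lat) (Φ : ℂ → ℂ) (hΦ : ContDiff ℝ ∞ Φ)
    (hinj : ∀ z v, fderiv ℝ Φ z v = 0 → v = 0)
    (c₁ c₂ : ℂ) (h1 : ∀ z, Φ (z + L.ω₁) = Φ z + c₁) (h2 : ∀ z, Φ (z + L.ω₂) = Φ z + c₂) :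
    ∃ Ψ : ℂ → ℂ, ContDiff ℝ ∞ Ψ ∧ (∀ z, Ψ (Φ z) = z) ∧ ∀ y, Φ (Ψ y) = y := by
  -- the derivative is invertible
  have hder : ∀ z₀ : ℂ, ∃ f' : ℂ ≃L[ℝ] ℂ, HasStrictFDerivAt Φ (f' : ℂ →L[ℝ] ℂ) z₀ := by
    intro z₀
    have hst : HasStrictFDerivAt Φ (fderiv ℝ Φ z₀) z₀ :=
      hΦ.contDiffAt.hasStrictFDerivAt (by simp)
    have hinj' : Function.Injective ((fderiv ℝ Φ z₀ : ℂ →L[ℝ] ℂ) : ℂ →ₗ[ℝ] ℂ) := by
      rw [injective_iff_map_eq_zero]
      exact fun v hv => hinj z₀ v hv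
    refine ⟨(LinearEquiv.ofInjectiveEndo ((fderiv ℝ Φ z₀ : ℂ →L[ℝ] ℂ) : ℂ →ₗ[ℝ] ℂ)
      hinj').toContinuousLinearEquiv, ?_⟩
    convert hst using 1
    ext v <;> rfl
  choose f' hf' using hder
  have hloc : IsLocalHomeomorph Φ := fun z₀ =>
    ⟨(hf' z₀).toOpenPartialHomeomorph Φ, (hf' z₀).mem_toOpenPartialHomeomorph_source,
      (hf' z₀).toOpenPartialHomeomorph_coe.symm⟩
  have hsep : IsSeparatedMap Φ := T2Space.isSeparatedMap Φ
  obtain ⟨r, hr, hsec⟩ := unif_section L Φ hΦ hinj c₁ c₂ h1 h2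
  choose g hg0 hgt using fun y => seg_lift Φ r hr hsec y
  let f : C(unitInterval × ℂ, ℂ) :=
    ⟨fun p => Φ 0 + (((p.1 : unitInterval) : ℝ) : ℂ) * (p.2 - Φ 0), by fun_prop⟩
  have hcont : Continuous (fun p : unitInterval × ℂ => g p.2 p.1) := by
    refine hloc.continuous_lift hsep f ?_ ?_ ?_
    · ext1 p
      exact hgt p.2 p.1
    · simp only [hg0]
      exact continuous_const
    · intro a
      exact (g a).continuous
  have hS : Continuous fun y => g y 1 :=
    hcont.comp (continuous_const.prodMk continuous_id : Continuous fun y : ℂ =>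
      ((1 : unitInterval), y))
  have hΦS : ∀ y, Φ (g y 1) = y := by
    intro y
    have h := hgt y 1
    rw [h]
    simp
  have hS0 : g (Φ 0) 1 = 0 := by
    have h := hsep.eq_of_comp_eq hloc.isLocallyInjective (g (Φ 0)).continuous
      (continuous_const (y := (0 : ℂ))) (by
        ext1 t
        simp only [Function.comp_apply]
        rw [hgt]
        simp) 0 (hg0 _)
    exact congrFun h 1
  have hSΦ : ∀ z, g (Φ z) 1 = z := by
    have h := hsep.eq_of_comp_eq hloc.isLocallyInjective (hS.comp hΦ.continuous)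
      continuous_id (by
        ext1 z
        simp only [Function.comp_apply, id_eq]
        exact hΦS (Φ z)) 0 hS0
    exact fun z => congrFun h z
  let e : ℂ ≃ₜ ℂ :=
    { toFun := Φ
      invFun := fun y => g y 1
      left_inv := hSΦ
      right_inv := hΦS
      continuous_toFun := hΦ.continuous
      continuous_invFun := hS }
  refine ⟨fun y => g y 1, ?_, hSΦ, hΦS⟩
  exact e.contDiff_symm (f₀' := f') (fun a => (hf' a).hasFDerivAt) hΦ

theorem GLO2_dir (c₁ c₂ : ℂ) (h : (conj c₁ * c₂).im = 0) :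
    ∃ d : ℂ, d ≠ 0 ∧ (conj d * c₁).im = 0 ∧ (conj d * c₂).im = 0 := by
  by_cases h1 : c₁ = 0
  · by_cases h2 : c₂ = 0
    · exact ⟨1, one_ne_zero, by simp [h1], by simp [h2]⟩
    · refine ⟨c₂, h2, by simp [h1], ?_⟩
      rw [← Complex.normSq_eq_conj_mul_self]
      exact Complex.ofReal_im _
  · refine ⟨c₁, h1, ?_, h⟩
    rw [← Complex.normSq_eq_conj_mul_self]
    exact Complex.ofReal_im _

theorem indep (L : Lat) (Φ : ℂ → ℂ) (hΦ : Continuous Φ) (hs : Function.Surjective Φ)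
    (c₁ c₂ : ℂ) (h1 : ∀ z, Φ (z + L.ω₁) = Φ z + c₁) (h2 : ∀ z, Φ (z + L.ω₂) = Φ z + c₂) :
    (conj c₁ * c₂).im ≠ 0 := by
  intro h
  obtain ⟨d, hd, hd1, hd2⟩ := GLO2_dir c₁ c₂ h
  have hper : Per L (fun z => (conj d * Φ z).im) := by
    constructor
    · intro z
      simp only [h1, mul_add, Complex.add_im, hd1, add_zero]
    · intro z
      simp only [h2, mul_add, Complex.add_im, hd2, add_zero]
  have hcont : Continuous (fun z => (conj d * Φ z).im) := by fun_prop
  obtain ⟨M, hM⟩ := (isCompact_closedBall (0 : ℂ) (‖L.ω₁‖ + ‖L.ω₂‖)).bddAbove_image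
    hcont.continuousOn
  have hb : ∀ z, (conj d * Φ z).im ≤ M := by
    intro z
    obtain ⟨m, n, hmn⟩ := gg_domain L z
    have := gg_per_eq hper z m n
    rw [← this]
    exact hM ⟨_, hmn, rfl⟩
  obtain ⟨z, hz⟩ := hs (d * (((M + 1) / Complex.normSq d : ℝ) * Complex.I))
  have h3 := hb z
  rw [hz, ← mul_assoc, ← Complex.normSq_eq_conj_mul_self] at h3
  have hn : Complex.normSq d ≠ 0 := by simpa using hd
  have h4 : ((Complex.normSq d : ℂ) * (((M + 1) / Complex.normSq d : ℝ) * Complex.I)).im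
      = M + 1 := by
    rw [← mul_assoc, ← Complex.ofReal_mul, mul_div_cancel₀ _ hn]
    simp
  rw [h4] at h3
  linarith

end P205T.U
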