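import Vale.Agent.P205T.Defs
import Vale.Agent.P205T.GFlatAux

/-! Module HOL: trivial holonomy.  `Z` is open (`HasStrictFDerivAt.map_nhds_eq_of_surj`; in dimension 2
injective = bijective).  Commutation: `Z (z+ω₁+ω₂)` in two ways gives `u₁ c₂ + c₁ = u₂ c₁ + c₂`.  If `u₁ ≠ 1` put
`p = c₁/(1-u₁)`; then `u₂ p + c₂ = p`; so `‖Z - p‖` is Λ-periodic and continuous, attains its maximum,
contradiction with `Z` open.  Same for `u₂`. -/

open Complex ComplexConjugate
open scoped ContDiff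

namespace P205T.U

theorem HOL_open (Z : ℂ → ℂ) (hZ : ContDiff ℝ ∞ Z) (hinj : ∀ z v, fderiv ℝ Z z v = 0 → v = 0) :
    IsOpenMap Z := by
  rw [isOpenMap_iff_nhds_le]
  intro z
  have hs : HasStrictFDerivAt Z (fderiv ℝ Z z) z :=
    (hZ.contDiffAt (x := z)).hasStrictFDerivAt (by norm_num)
  have hker : Function.Injective (fderiv ℝ Z z) := by
    intro a b hab
    have : fderiv ℝ Z z (a - b) = 0 := by rw [map_sub, hab, sub_self]
    exact sub_eq_zero.mp (hinj z _ this)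
  have hsurj : Function.Surjective (fderiv ℝ Z z) := by
    have := (LinearMap.injective_iff_surjective (f := (fderiv ℝ Z z : ℂ →ₗ[ℝ] ℂ))).mp hker
    exact this
  have hr : (fderiv ℝ Z z).range = ⊤ := LinearMap.range_eq_top.mpr hsurj
  exact (hs.map_nhds_eq_of_surj hr).ge

theorem HOL_max (L : Lat) {f : ℂ → ℝ} (hf : Continuous f) (hp : Per L f) :
    ∃ z0, ∀ z, f z ≤ f z0 := by
  have hc : IsCompact (Metric.closedBall (0 : ℂ) (‖L.ω₁‖ + ‖L.ω₂‖)) := isCompact_closedBall _ _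
  have hne : (Metric.closedBall (0 : ℂ) (‖L.ω₁‖ + ‖L.ω₂‖)).Nonempty :=
    ⟨0, Metric.mem_closedBall_self (by positivity)⟩
  obtain ⟨z0, -, h0⟩ := hc.exists_isMaxOn hne hf.continuousOn
  refine ⟨z0, fun z => ?_⟩
  obtain ⟨m, n, hmn⟩ := gg_domain L z
  rw [← gg_per_eq hp z m n]
  exact h0 hmn

/-- an open map cannot have `‖Z - p‖` with a maximum. -/
theorem HOL_contra {Z : ℂ → ℂ} (ho : IsOpenMap Z) (p z₀ : ℂ) (h : ∀ z, ‖Z z - p‖ ≤ ‖Z z₀ - p‖) : False := by
  have hnh : Set.range Z ∈ nhds (Z z₀) := by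
    have := ho Set.univ isOpen_univ
    rw [Set.image_univ] at this
    exact this.mem_nhds ⟨z₀, rfl⟩
  obtain ⟨r, hr, hball⟩ := Metric.mem_nhds_iff.mp hnh
  by_cases h0 : Z z₀ = p
  · have hy : p + ((r / 2 : ℝ) : ℂ) ∈ Metric.ball (Z z₀) r := by
      rw [Metric.mem_ball, dist_eq_norm, h0, add_sub_cancel_left, Complex.norm_real, Real.norm_eq_abs,
        abs_of_pos (by positivity)]
      linarith
    obtain ⟨z, hz⟩ := hball hy
    have := h z
    rw [hz, h0, add_sub_cancel_left, sub_self, norm_zero, Complex.norm_real, Real.norm_eq_abs,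
      abs_of_pos (by positivity)] at this
    linarith
  · have hpos : 0 < ‖Z z₀ - p‖ := norm_pos_iff.mpr (sub_ne_zero.mpr h0)
    set s : ℝ := r / (2 * ‖Z z₀ - p‖) with hs
    have hs0 : 0 < s := by positivity
    have hy : Z z₀ + (s : ℂ) * (Z z₀ - p) ∈ Metric.ball (Z z₀) r := by
      rw [Metric.mem_ball, dist_eq_norm, add_sub_cancel_left, norm_mul, Complex.norm_real, Real.norm_eq_abs,
        abs_of_pos hs0]
      have : s * ‖Z z₀ - p‖ = r / 2 := by
        rw [hs]; field_simp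
      rw [this]; linarith
    obtain ⟨z, hz⟩ := hball hy
    have h1 := h z
    rw [hz] at h1
    have h2 : Z z₀ + (s : ℂ) * (Z z₀ - p) - p = ((1 + s : ℝ) : ℂ) * (Z z₀ - p) := by
      push_cast; ring
    rw [h2, norm_mul, Complex.norm_real, Real.norm_eq_abs, abs_of_pos (by linarith)] at h1
    nlinarith

theorem HOL_step (L : Lat) (Z : ℂ → ℂ) (hZ : ContDiff ℝ ∞ Z) (ho : IsOpenMap Z) (w w' : ℂ)
    (hL : ∀ f : ℂ → ℝ, (∀ z, f (z + w) = f z) → (∀ z, f (z + w') = f z) → Per L f)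
    (u u' c c' : ℂ) (hu : ‖u‖ = 1) (hu' : ‖u'‖ = 1) (h : ∀ z, Z (z + w) = u * Z z + c)
    (h' : ∀ z, Z (z + w') = u' * Z z + c') : u = 1 := by
  by_contra hne
  have h1u : (1 : ℂ) - u ≠ 0 := sub_ne_zero.mpr (Ne.symm hne)
  have hcomm : u * c' + c = u' * c + c' := by
    have e1 : Z (0 + w' + w) = u * (u' * Z 0 + c') + c := by rw [h, h']
    have e2 : Z (0 + w + w') = u' * (u * Z 0 + c) + c' := by rw [h', h]
    have e3 : (0 : ℂ) + w' + w = 0 + w + w' := by ring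
    rw [e3, e2] at e1
    linear_combination -e1
  set p : ℂ := c / (1 - u) with hp
  have hp1 : u * p + c = p := by
    rw [hp]; field_simp; ring
  have hp2 : u' * p + c' = p := by
    have h3 : c' * (1 - u) = c * (1 - u') := by linear_combination -hcomm
    have h4 : c' = c * (1 - u') / (1 - u) := by
      rw [eq_div_iff h1u]; exact h3
    rw [h4, hp]; field_simp; ring
  have hf : Per L (fun z => ‖Z z - p‖) := by
    apply hL
    · intro z
      have : Z (z + w) - p = u * (Z z - p) := by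
        rw [h]; linear_combination hp1
      simp only [this, norm_mul, hu, one_mul]
    · intro z
      have : Z (z + w') - p = u' * (Z z - p) := by
        rw [h']; linear_combination hp2
      simp only [this, norm_mul, hu', one_mul]
  obtain ⟨z₀, hz₀⟩ := HOL_max L (f := fun z => ‖Z z - p‖) ((hZ.continuous.sub continuous_const).norm) hf
  exact HOL_contra ho p z₀ hz₀

theorem hol_trivial (L : Lat) (Z : ℂ → ℂ) (hZ : ContDiff ℝ ∞ Z) (hinj : ∀ z v, fderiv ℝ Z z v = 0 → v = 0)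
    (u₁ u₂ c₁ c₂ : ℂ) (hu1 : ‖u₁‖ = 1) (hu2 : ‖u₂‖ = 1) (h1 : ∀ z, Z (z + L.ω₁) = u₁ * Z z + c₁)
    (h2 : ∀ z, Z (z + L.ω₂) = u₂ * Z z + c₂) : u₁ = 1 ∧ u₂ = 1 := by
  have ho := HOL_open Z hZ hinj
  exact ⟨HOL_step L Z hZ ho L.ω₁ L.ω₂ (fun f a b => ⟨a, b⟩) u₁ u₂ c₁ c₂ hu1 hu2 h1 h2,
    HOL_step L Z hZ ho L.ω₂ L.ω₁ (fun f a b => ⟨b, a⟩) u₂ u₁ c₂ c₁ hu2 hu1 h2 h1⟩

end P205T.U
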