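import Vale.Agent.P205U.Unif

/-! Module MAI: every smooth Riemannian metric on a torus `ℂ/Λ` has a smooth isometric immersion into `ℝ⁴`.
`l := exp(-v) ∘ Ψ` is smooth, positive, `(c₁,c₂)`-periodic; `F₀ := torus_immersion c₁ c₂ l`; `X := F₀ ∘ Z`;
`⟪dX v, dX w⟫ = l(Z)² ⟪dZ v, dZ w⟫` and polarization of `‖dZ u‖² = exp(2v) g(u,u)`. -/

open Complex ComplexConjugate
open scoped ContDiff

namespace P205T.U

theorem MAI1_polar {A : ℂ →L[ℝ] ℂ} {c e f g : ℝ}
    (h : ∀ u : ℂ, ‖A u‖ ^ 2 = c * (e * u.re ^ 2 + 2 * f * u.re * u.im + g * u.im ^ 2)) (v w : ℂ) :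
    inner ℝ (A v) (A w) = c * (e * v.re * w.re + f * (v.re * w.im + v.im * w.re) + g * v.im * w.im) := by
  have h1 := h (v + w)
  rw [map_add, norm_add_sq_real, h v, h w] at h1
  simp only [Complex.add_re, Complex.add_im] at h1
  linarith

theorem torus_EFG (L : Lat) (E F G : ℂ → ℝ) (hE : ContDiff ℝ ∞ E) (hF : ContDiff ℝ ∞ F)
    (hG : ContDiff ℝ ∞ G) (pE : Per L E) (pF : Per L F) (pG : Per L G) (hE0 : ∀ z, 0 < E z)
    (hD : ∀ z, 0 < E z * G z - F z ^ 2) :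
    ∃ X : ℂ → EuclideanSpace ℝ (Fin 4), ContDiff ℝ ∞ X ∧
      (∀ z, X (z + L.ω₁) = X z) ∧ (∀ z, X (z + L.ω₂) = X z) ∧
      ∀ z v w, inner ℝ (fderiv ℝ X z v) (fderiv ℝ X z w)
        = E z * v.re * w.re + F z * (v.re * w.im + v.im * w.re) + G z * v.im * w.im := by
  obtain ⟨v, hv, pv, Z, Ψ, hZ, hΨ, hΨZ, hZΨ, ⟨c₁, c₂, hc, hc1, hc2⟩, hmet⟩ :=
    uniformization L E F G hE hF hG pE pF pG hE0 hD
  have hs : ∀ c o : ℂ, (∀ z, Z (z + o) = Z z + c) → ∀ y, Ψ (y + c) = Ψ y + o := by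
    intro c o h y
    have h1 : Z (Ψ y + o) = y + c := by rw [h, hZΨ]
    rw [← h1, hΨZ]
  obtain ⟨F₀, hF₀, p1, p2, hin⟩ := torus_immersion c₁ c₂ hc (fun y => Real.exp (-v (Ψ y)))
    ((hv.comp hΨ).neg.exp) (fun z => Real.exp_pos _)
    (fun z => by simp only [hs c₁ L.ω₁ hc1 z, pv.1]) (fun z => by simp only [hs c₂ L.ω₂ hc2 z, pv.2])
  refine ⟨fun z => F₀ (Z z), hF₀.comp hZ, fun z => ?_, fun z => ?_, fun z a b => ?_⟩
  · simp only [hc1, p1]
  · simp only [hc2, p2]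
  · have hd : fderiv ℝ (fun z => F₀ (Z z)) z = (fderiv ℝ F₀ (Z z)).comp (fderiv ℝ Z z) :=
      fderiv_comp z (hF₀.differentiable (by simp) (Z z)) (hZ.differentiable (by simp) z)
    rw [hd]
    simp only [ContinuousLinearMap.comp_apply]
    rw [hin, hΨZ, MAI1_polar (hmet z) a b]
    have he : Real.exp (-v z) ^ 2 * Real.exp (2 * v z) = 1 := by
      rw [← Real.exp_nat_mul, ← Real.exp_add]
      simp
    rw [← mul_assoc, he, one_mul]

theorem MAI2_expand (B : ℂ →L[ℝ] ℂ →L[ℝ] ℝ) (hs : ∀ v w, B v w = B w v) (v w : ℂ) :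
    B v w = B 1 1 * v.re * w.re + B 1 Complex.I * (v.re * w.im + v.im * w.re)
      + B Complex.I Complex.I * v.im * w.im := by
  have hv : v = v.re • (1 : ℂ) + v.im • Complex.I := by
    apply Complex.ext <;> simp
  have hw : w = w.re • (1 : ℂ) + w.im • Complex.I := by
    apply Complex.ext <;> simp
  conv_lhs => rw [hv, hw]
  simp only [map_add, map_smul, add_apply, smul_apply, smul_eq_mul]
  rw [hs Complex.I 1]
  ring

/-- General form: a smooth field `g` of symmetric positive definite bilinear forms on `ℂ = ℝ²`, periodic under the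
lattice `ℤω₁ + ℤω₂`. -/
theorem torus_general (ω₁ ω₂ : ℂ) (hω : (conj ω₁ * ω₂).im ≠ 0) (g : ℂ → ℂ →L[ℝ] ℂ →L[ℝ] ℝ)
    (hg : ContDiff ℝ ∞ g) (hsym : ∀ z v w, g z v w = g z w v) (hpos : ∀ z v, v ≠ 0 → 0 < g z v v)
    (h1 : ∀ z, g (z + ω₁) = g z) (h2 : ∀ z, g (z + ω₂) = g z) :
    ∃ X : ℂ → EuclideanSpace ℝ (Fin 4), ContDiff ℝ ∞ X ∧
      (∀ z, X (z + ω₁) = X z) ∧ (∀ z, X (z + ω₂) = X z) ∧
      ∀ z v w, inner ℝ (fderiv ℝ X z v) (fderiv ℝ X z w) = g z v w := by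
  have sm : ∀ v w : ℂ, ContDiff ℝ ∞ (fun z => g z v w) := fun v w =>
    (hg.clm_apply contDiff_const).clm_apply contDiff_const
  have pr : ∀ v w : ℂ, Per ⟨ω₁, ω₂, hω⟩ (fun z => g z v w) := fun v w =>
    ⟨fun z => by show g (z + ω₁) v w = g z v w; rw [h1],
      fun z => by show g (z + ω₂) v w = g z v w; rw [h2]⟩
  have hG : ∀ z, 0 < g z Complex.I Complex.I := fun z => hpos z _ Complex.I_ne_zero
  have hE : ∀ z, 0 < g z 1 1 := fun z => hpos z _ one_ne_zero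
  have hD : ∀ z, 0 < g z 1 1 * g z Complex.I Complex.I - g z 1 Complex.I ^ 2 := by
    intro z
    have hG0 := hG z
    have h3 := hpos z (⟨g z Complex.I Complex.I, -g z 1 Complex.I⟩ : ℂ) (by
      intro h
      have h4 := congrArg Complex.re h
      exact hG0.ne' h4)
    rw [MAI2_expand _ (hsym z)] at h3
    simp only at h3
    have h4 : 0 < g z Complex.I Complex.I *
        (g z 1 1 * g z Complex.I Complex.I - g z 1 Complex.I ^ 2) := by
      have e : g z Complex.I Complex.I *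
        (g z 1 1 * g z Complex.I Complex.I - g z 1 Complex.I ^ 2) =
        g z 1 1 * g z Complex.I Complex.I * g z Complex.I Complex.I +
        g z 1 Complex.I * (g z Complex.I Complex.I * -g z 1 Complex.I +
          -g z 1 Complex.I * g z Complex.I Complex.I) +
        g z Complex.I Complex.I * -g z 1 Complex.I * -g z 1 Complex.I := by ring
      rw [e]
      exact h3
    exact (pos_iff_pos_of_mul_pos h4).1 hG0
  obtain ⟨X, c1, c2, c3, c4⟩ := torus_EFG ⟨ω₁, ω₂, hω⟩ (fun z => g z 1 1)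
    (fun z => g z 1 Complex.I) (fun z => g z Complex.I Complex.I) (sm _ _) (sm _ _) (sm _ _)
    (pr _ _) (pr _ _) (pr _ _) hE hD
  refine ⟨X, c1, c2, c3, fun z v w => ?_⟩
  rw [c4, MAI2_expand (g z) (hsym z) v w]

end P205T.U
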