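import Vale.Agent.P205U.Rap

/-! Module COM: commutator estimate.
`young`: Cauchy-Schwarz `(∑_m a m h (n-m))² ≤ (∑ a)(∑_m a m h (n-m)²)` and Fubini for nonnegative sums.
`comm_bound`: `conv b H n = ∑_m b m H (n-m)`, and
`|wt n ^ (s+1) - wt (n-m) ^ (s+1)| ≤ (s+1) |wt n - wt (n-m)| max(..)^s ≤ (s+1) wt m ^ (s+1) * wt (n-m) ^ s`
(because `|wt n - wt (n-m)| ≤ wt m`, `wt n ≤ wt m * wt (n-m)`).  Then `young` with `a m = (s+1) wt m^(s+1) ‖b m‖`,
`h l = wt l ^ s ‖H l‖`. -/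

open Complex ComplexConjugate
open scoped ContDiff

namespace P205T.U

theorem COM1_cs {ι : Type*} (a g : ι → ℝ) (ha0 : ∀ n, 0 ≤ a n) (ha : Summable a)
    (hag : Summable fun n => a n * g n) (hag2 : Summable fun n => a n * g n ^ 2) :
    (∑' m, a m * g m) ^ 2 ≤ (∑' m, a m) * ∑' m, a m * g m ^ 2 := by
  have h1 := (hag.hasSum.pow 2)
  have h2 : ∀ s : Finset ι, (∑ m ∈ s, a m * g m) ^ 2 ≤ (∑' m, a m) * ∑' m, a m * g m ^ 2 := by
    intro s
    have e := Finset.sum_mul_sq_le_sq_mul_sq s (fun m => Real.sqrt (a m)) (fun m => Real.sqrt (a m) * g m)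
    have e1 : ∑ m ∈ s, Real.sqrt (a m) * (Real.sqrt (a m) * g m) = ∑ m ∈ s, a m * g m := by
      refine Finset.sum_congr rfl fun m _ => ?_
      rw [← mul_assoc, Real.mul_self_sqrt (ha0 m)]
    have e2 : ∑ m ∈ s, Real.sqrt (a m) ^ 2 = ∑ m ∈ s, a m :=
      Finset.sum_congr rfl fun m _ => Real.sq_sqrt (ha0 m)
    have e3 : ∑ m ∈ s, (Real.sqrt (a m) * g m) ^ 2 = ∑ m ∈ s, a m * g m ^ 2 := by
      refine Finset.sum_congr rfl fun m _ => ?_
      rw [mul_pow, Real.sq_sqrt (ha0 m)]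
    rw [e1, e2, e3] at e
    refine e.trans ?_
    have f1 : ∑ m ∈ s, a m ≤ ∑' m, a m := ha.sum_le_tsum s fun m _ => ha0 m
    have f2 : ∑ m ∈ s, a m * g m ^ 2 ≤ ∑' m, a m * g m ^ 2 :=
      hag2.sum_le_tsum s fun m _ => mul_nonneg (ha0 m) (sq_nonneg _)
    exact mul_le_mul f1 f2 (Finset.sum_nonneg fun m _ => mul_nonneg (ha0 m) (sq_nonneg _))
      (tsum_nonneg ha0)
  have h3 : Filter.Tendsto (fun s : Finset ι => (∑ m ∈ s, a m * g m) ^ 2) Filter.atTop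
      (nhds ((∑' m, a m * g m) ^ 2)) := by
    have : Filter.Tendsto (fun s : Finset ι => ∑ m ∈ s, a m * g m) Filter.atTop
      (nhds (∑' m, a m * g m)) := hag.hasSum
    exact this.pow 2
  exact le_of_tendsto' h3 h2

theorem young (a h : ℤ × ℤ → ℝ) (ha0 : ∀ n, 0 ≤ a n) (hh0 : ∀ n, 0 ≤ h n) (ha : Summable a)
    (hh : Summable fun n => h n ^ 2) :
    (Summable fun n => (∑' m, a m * h (n - m)) ^ 2) ∧
      ∑' n, (∑' m, a m * h (n - m)) ^ 2 ≤ (∑' m, a m) ^ 2 * ∑' n, h n ^ 2 := by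
  have hb : ∀ n, h n ^ 2 ≤ ∑' l, h l ^ 2 := fun n => hh.le_tsum n fun _ _ => sq_nonneg _
  set S := ∑' l, h l ^ 2 with hS
  have hS0 : 0 ≤ S := tsum_nonneg fun _ => sq_nonneg _
  have hb1 : ∀ n, h n ≤ Real.sqrt S := fun n => Real.le_sqrt_of_sq_le (hb n)
  have s1 : ∀ n, Summable fun m => a m * h (n - m) := fun n =>
    Summable.of_nonneg_of_le (fun m => mul_nonneg (ha0 m) (hh0 _))
      (fun m => mul_le_mul_of_nonneg_left (hb1 _) (ha0 m)) (ha.mul_right (Real.sqrt S))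
  have s2 : ∀ n, Summable fun m => a m * h (n - m) ^ 2 := fun n =>
    Summable.of_nonneg_of_le (fun m => mul_nonneg (ha0 m) (sq_nonneg _))
      (fun m => mul_le_mul_of_nonneg_left (hb _) (ha0 m)) (ha.mul_right S)
  have hcs : ∀ n, (∑' m, a m * h (n - m)) ^ 2 ≤ (∑' m, a m) * ∑' m, a m * h (n - m) ^ 2 := fun n =>
    COM1_cs a (fun m => h (n - m)) ha0 ha (s1 n) (s2 n)
  -- Fubini
  let e : (ℤ × ℤ) × (ℤ × ℤ) ≃ (ℤ × ℤ) × (ℤ × ℤ) :=
    { toFun := fun p => (p.2, p.1 - p.2)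
      invFun := fun p => (p.1 + p.2, p.1)
      left_inv := fun p => by ext <;> simp
      right_inv := fun p => by ext <;> simp }
  have hP : Summable fun p : (ℤ × ℤ) × (ℤ × ℤ) => a p.1 * h p.2 ^ 2 :=
    ha.mul_of_nonneg hh ha0 fun _ => sq_nonneg _
  have hQ : Summable fun p : (ℤ × ℤ) × (ℤ × ℤ) => a p.2 * h (p.1 - p.2) ^ 2 :=
    (e.summable_iff (f := fun p : (ℤ × ℤ) × (ℤ × ℤ) => a p.1 * h p.2 ^ 2)).mpr hP
  have hQ1 : Summable fun n => ∑' m, a m * h (n - m) ^ 2 := hQ.prod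
  have hQ2 : ∑' n, ∑' m, a m * h (n - m) ^ 2 = (∑' m, a m) * S := by
    have q1 : ∑' p : (ℤ × ℤ) × (ℤ × ℤ), a p.2 * h (p.1 - p.2) ^ 2 = ∑' n, ∑' m, a m * h (n - m) ^ 2 :=
      hQ.tsum_prod' s2
    have q2 : ∑' p : (ℤ × ℤ) × (ℤ × ℤ), a p.2 * h (p.1 - p.2) ^ 2
        = ∑' p : (ℤ × ℤ) × (ℤ × ℤ), a p.1 * h p.2 ^ 2 :=
      e.tsum_eq fun p : (ℤ × ℤ) × (ℤ × ℤ) => a p.1 * h p.2 ^ 2
    rw [← q1, q2, hS]
    exact (ha.tsum_mul_tsum hh hP).symm
  have hS2 : Summable fun n => (∑' m, a m) * ∑' m, a m * h (n - m) ^ 2 := hQ1.mul_left _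
  have hS3 : Summable fun n => (∑' m, a m * h (n - m)) ^ 2 :=
    Summable.of_nonneg_of_le (fun _ => sq_nonneg _) hcs hS2
  refine ⟨hS3, ?_⟩
  calc ∑' n, (∑' m, a m * h (n - m)) ^ 2 ≤ ∑' n, (∑' m, a m) * ∑' m, a m * h (n - m) ^ 2 :=
        hS3.tsum_le_tsum hcs hS2
    _ = (∑' m, a m) ^ 2 * S := by rw [tsum_mul_left, hQ2]; ring

private theorem com2_pow {x y w : ℝ} (s : ℕ) (hx : 1 ≤ x) (hy : 1 ≤ y) (hw : 1 ≤ w)
    (h1 : x ≤ y + w) (h2 : y ≤ x + w) (h3 : x ≤ w * y) :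
    |x ^ (s + 1) - y ^ (s + 1)| ≤ (s + 1) * w ^ (s + 1) * y ^ s := by
  have hm : max |x| |y| ≤ w * y := by
    rw [abs_of_pos (by linarith), abs_of_pos (by linarith)]
    exact max_le h3 (by nlinarith)
  have hxy : |x - y| ≤ w := by
    rw [abs_le]
    constructor <;> linarith
  calc |x ^ (s + 1) - y ^ (s + 1)| ≤ |x - y| * ((s + 1 : ℕ) : ℝ) * max |x| |y| ^ (s + 1 - 1) :=
        abs_pow_sub_pow_le x y (s + 1)
    _ ≤ w * ((s + 1 : ℕ) : ℝ) * (w * y) ^ s := by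
        rw [Nat.add_sub_cancel]
        have h0 : 0 ≤ max |x| |y| := le_trans (abs_nonneg x) (le_max_left _ _)
        gcongr
    _ = (s + 1) * w ^ (s + 1) * y ^ s := by
        push_cast
        ring

theorem comm_bound (L : Lat) {b : V} (hb : Rapid L b) (s : ℕ) :
    ∃ C : ℝ, 0 ≤ C ∧ ∀ H H' : V, Rapid L H → (∀ n, H' n = ((wt L n ^ (s + 1) : ℝ) : ℂ) * H n) →
      ∑' n, ‖((wt L n ^ (s + 1) : ℝ) : ℂ) * conv b H n - conv b H' n‖ ^ 2
        ≤ C * ∑' n, wt L n ^ (2 * s) * ‖H n‖ ^ 2 := by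
  set a : ℤ × ℤ → ℝ := fun m => (s + 1) * (wt L m ^ (s + 1) * ‖b m‖) with ha
  have hw0 : ∀ n, 0 < wt L n := fun n => lt_of_lt_of_le one_pos (one_le_wt L n)
  have ha0 : ∀ n, 0 ≤ a n := fun n => by
    have := hw0 n
    rw [ha]
    positivity
  have has : Summable a := (hb (s + 1)).mul_left _
  refine ⟨(∑' m, a m) ^ 2, sq_nonneg _, fun H H' hH hH' => ?_⟩
  set h : ℤ × ℤ → ℝ := fun l => wt L l ^ s * ‖H l‖ with hh
  have hh0 : ∀ n, 0 ≤ h n := fun n => by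
    have := hw0 n
    rw [hh]
    positivity
  have hsum : Summable h := hH s
  have hsq : ∀ n, h n ^ 2 = wt L n ^ (2 * s) * ‖H n‖ ^ 2 := fun n => by
    rw [hh]
    ring
  have hh2 : Summable fun n => h n ^ 2 := by
    rw [funext hsq]
    exact summable_sq hH s
  obtain ⟨hy1, hy2⟩ := young a h ha0 hh0 has hh2
  have hfib : ∀ n, Summable fun m => a m * h (n - m) := by
    intro n
    refine Summable.of_nonneg_of_le (fun m => mul_nonneg (ha0 m) (hh0 _)) (fun m => ?_)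
      (has.mul_right (∑' l, h l))
    exact mul_le_mul_of_nonneg_left (hsum.le_tsum (n - m) fun l _ => hh0 l) (ha0 m)
  have hpt : ∀ n, ‖((wt L n ^ (s + 1) : ℝ) : ℂ) * conv b H n - conv b H' n‖
      ≤ ∑' m, a m * h (n - m) := by
    intro n
    have e1 : ((wt L n ^ (s + 1) : ℝ) : ℂ) * conv b H n - conv b H' n
        = ∑' m, (((wt L n ^ (s + 1) : ℝ) : ℂ) * (b m * H (n - m)) - b m * H' (n - m)) := by
      rw [conv_apply, conv_apply, ← tsum_mul_left,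
        ((wb2_fiber' b H n).mul_left _).tsum_sub (wb2_fiber' b H' n)]
    have e2 : ∀ m, ‖((wt L n ^ (s + 1) : ℝ) : ℂ) * (b m * H (n - m)) - b m * H' (n - m)‖
        ≤ a m * h (n - m) := by
      intro m
      rw [hH' (n - m)]
      have e3 : ((wt L n ^ (s + 1) : ℝ) : ℂ) * (b m * H (n - m)) -
          b m * (((wt L (n - m) ^ (s + 1) : ℝ) : ℂ) * H (n - m))
          = ((wt L n ^ (s + 1) - wt L (n - m) ^ (s + 1) : ℝ) : ℂ) * (b m * H (n - m)) := by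
        push_cast
        ring
      rw [e3, norm_mul, norm_mul, Complex.norm_real, Real.norm_eq_abs]
      have e4 : |wt L n ^ (s + 1) - wt L (n - m) ^ (s + 1)|
          ≤ (s + 1) * wt L m ^ (s + 1) * wt L (n - m) ^ s := by
        apply com2_pow s (one_le_wt L n) (one_le_wt L _) (one_le_wt L m)
        · have := wt_add L (n - m) m
          rwa [sub_add_cancel] at this
        · have := wt_add L n (-m)
          rwa [← sub_eq_add_neg, wt_neg] at this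
        · have := wt_mul L m (n - m)
          rwa [add_sub_cancel] at this
      calc |wt L n ^ (s + 1) - wt L (n - m) ^ (s + 1)| * (‖b m‖ * ‖H (n - m)‖)
          ≤ ((s + 1) * wt L m ^ (s + 1) * wt L (n - m) ^ s) * (‖b m‖ * ‖H (n - m)‖) := by
            gcongr
        _ = a m * h (n - m) := by
            rw [ha, hh]
            ring
    have e5 : Summable fun m =>
        ‖((wt L n ^ (s + 1) : ℝ) : ℂ) * (b m * H (n - m)) - b m * H' (n - m)‖ :=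
      Summable.of_nonneg_of_le (fun _ => norm_nonneg _) e2 (hfib n)
    rw [e1]
    exact (norm_tsum_le_tsum_norm e5).trans (e5.tsum_le_tsum e2 (hfib n))
  have hle : ∀ n, ‖((wt L n ^ (s + 1) : ℝ) : ℂ) * conv b H n - conv b H' n‖ ^ 2
      ≤ (∑' m, a m * h (n - m)) ^ 2 := fun n => by
    have := hpt n
    gcongr
  have hs1 : Summable fun n => ‖((wt L n ^ (s + 1) : ℝ) : ℂ) * conv b H n - conv b H' n‖ ^ 2 :=
    Summable.of_nonneg_of_le (fun _ => sq_nonneg _) hle hy1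
  calc ∑' n, ‖((wt L n ^ (s + 1) : ℝ) : ℂ) * conv b H n - conv b H' n‖ ^ 2
      ≤ ∑' n, (∑' m, a m * h (n - m)) ^ 2 := hs1.tsum_le_tsum hle hy1
    _ ≤ (∑' m, a m) ^ 2 * ∑' n, h n ^ 2 := hy2
    _ = (∑' m, a m) ^ 2 * ∑' n, wt L n ^ (2 * s) * ‖H n‖ ^ 2 := by rw [funext hsq]

end P205T.U
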