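import Vale.Agent.P205U.Ell

/-! Module CONF: conformal change.  `E' = exp(2v) E`, ... : `Om1' = Om1 + (F v_x - E v_y)/D`, `Om2' = Om2 + (G v_x - F v_y)/D`,
`D = √(EG-F²)`; hence `dx Om2' - dy Om1' = div (A∇v - β)` with `A = D⁻¹ [[G,-F],[-F,E]]`, `β = (-Om2, Om1)`
(`A11 A22 - A12² = 1`). -/

open Complex ComplexConjugate
open scoped ContDiff

namespace P205T.U

private theorem CON1_fderiv {v E : ℂ → ℝ} {z : ℂ} (hv : DifferentiableAt ℝ v z)
    (hE : DifferentiableAt ℝ E z) (c : ℂ) :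
    fderiv ℝ (fun x => Real.exp (2 * v x) * E x) z c
      = Real.exp (2 * v z) * (2 * fderiv ℝ v z c * E z + fderiv ℝ E z c) := by
  have h1 : HasFDerivAt (fun x => Real.exp (2 * v x))
      (Real.exp (2 * v z) • ((2 : ℝ) • fderiv ℝ v z)) z :=
    (hv.hasFDerivAt.const_mul (2 : ℝ)).exp
  have h2 := h1.mul hE.hasFDerivAt
  have h3 : fderiv ℝ (fun x => Real.exp (2 * v x) * E x) z
      = Real.exp (2 * v z) • fderiv ℝ E z
        + E z • (Real.exp (2 * v z) • ((2 : ℝ) • fderiv ℝ v z)) := h2.fderiv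
  rw [h3]
  simp only [ContinuousLinearMap.add_apply, ContinuousLinearMap.smul_apply, smul_eq_mul]
  ring

private theorem CON1_sqrt {a E F G : ℝ} :
    √(Real.exp (2 * a) * E * (Real.exp (2 * a) * G) - (Real.exp (2 * a) * F) ^ 2)
      = Real.exp (2 * a) * √(E * G - F ^ 2) := by
  have e1 : Real.exp (2 * a) * E * (Real.exp (2 * a) * G) - (Real.exp (2 * a) * F) ^ 2
      = Real.exp (2 * a) ^ 2 * (E * G - F ^ 2) := by ring
  rw [e1, Real.sqrt_mul (sq_nonneg _), Real.sqrt_sq (Real.exp_pos _).le]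

theorem Om1_conf (E F G v : ℂ → ℝ) (hE : ContDiff ℝ ∞ E) (hF : ContDiff ℝ ∞ F) (hG : ContDiff ℝ ∞ G)
    (hv : ContDiff ℝ ∞ v) (hE0 : ∀ z, 0 < E z) (hD : ∀ z, 0 < E z * G z - F z ^ 2) (z : ℂ) :
    Om1 (fun z => Real.exp (2 * v z) * E z) (fun z => Real.exp (2 * v z) * F z)
        (fun z => Real.exp (2 * v z) * G z) z
      = Om1 E F G z + (F z * dx v z - E z * dy v z) / √(E z * G z - F z ^ 2) := by
  have dE : DifferentiableAt ℝ E z := (hE.differentiable (by simp)) z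
  have dF : DifferentiableAt ℝ F z := (hF.differentiable (by simp)) z
  have dv : DifferentiableAt ℝ v z := (hv.differentiable (by simp)) z
  have D0 : 0 < √(E z * G z - F z ^ 2) := Real.sqrt_pos.2 (hD z)
  have x0 : 0 < Real.exp (2 * v z) := Real.exp_pos _
  have e0 := hE0 z
  unfold Om1 dx dy
  rw [CON1_sqrt, CON1_fderiv dv dE, CON1_fderiv dv dE, CON1_fderiv dv dF]
  field_simp
  ring

theorem Om2_conf (E F G v : ℂ → ℝ) (hE : ContDiff ℝ ∞ E) (hF : ContDiff ℝ ∞ F) (hG : ContDiff ℝ ∞ G)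
    (hv : ContDiff ℝ ∞ v) (hE0 : ∀ z, 0 < E z) (hD : ∀ z, 0 < E z * G z - F z ^ 2) (z : ℂ) :
    Om2 (fun z => Real.exp (2 * v z) * E z) (fun z => Real.exp (2 * v z) * F z)
        (fun z => Real.exp (2 * v z) * G z) z
      = Om2 E F G z + (G z * dx v z - F z * dy v z) / √(E z * G z - F z ^ 2) := by
  have dE : DifferentiableAt ℝ E z := (hE.differentiable (by simp)) z
  have dG : DifferentiableAt ℝ G z := (hG.differentiable (by simp)) z
  have dv : DifferentiableAt ℝ v z := (hv.differentiable (by simp)) z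
  have D0 : 0 < √(E z * G z - F z ^ 2) := Real.sqrt_pos.2 (hD z)
  have x0 : 0 < Real.exp (2 * v z) := Real.exp_pos _
  have e0 := hE0 z
  unfold Om2 dx dy
  rw [CON1_sqrt, CON1_fderiv dv dG, CON1_fderiv dv dE]
  field_simp
  ring

theorem CON2_dx {f : ℂ → ℝ} (hf : ContDiff ℝ ∞ f) : ContDiff ℝ ∞ (dx f) :=
  (hf.fderiv_right (m := ∞) (by simp)).clm_apply contDiff_const

theorem CON2_dy {f : ℂ → ℝ} (hf : ContDiff ℝ ∞ f) : ContDiff ℝ ∞ (dy f) :=
  (hf.fderiv_right (m := ∞) (by simp)).clm_apply contDiff_const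

theorem CON2_fd {f : ℂ → ℝ} {w : ℂ} (hf : ∀ z, f (z + w) = f z) (z : ℂ) :
    fderiv ℝ f (z + w) = fderiv ℝ f z := by
  have h1 : (fun z => f (z + w)) = f := funext hf
  have h2 : fderiv ℝ (fun z => f (z + w)) z = fderiv ℝ f (z + w) := fderiv_comp_add_right w
  rw [← h2, h1]

theorem CON2_den {E F G : ℂ → ℝ} (hE : ContDiff ℝ ∞ E) (hF : ContDiff ℝ ∞ F) (hG : ContDiff ℝ ∞ G)
    (hD : ∀ z, 0 < E z * G z - F z ^ 2) :
    ContDiff ℝ ∞ fun z => 2 * E z * √(E z * G z - F z ^ 2) :=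
  (contDiff_const.mul hE).mul (((hE.mul hG).sub (hF.pow 2)).sqrt fun z => (hD z).ne')

theorem CON2_ne {E F G : ℂ → ℝ} (hE0 : ∀ z, 0 < E z) (hD : ∀ z, 0 < E z * G z - F z ^ 2) (z : ℂ) :
    2 * E z * √(E z * G z - F z ^ 2) ≠ 0 :=
  (mul_pos (mul_pos two_pos (hE0 z)) (Real.sqrt_pos.2 (hD z))).ne'

theorem contDiff_Om (E F G : ℂ → ℝ) (hE : ContDiff ℝ ∞ E) (hF : ContDiff ℝ ∞ F) (hG : ContDiff ℝ ∞ G)
    (hE0 : ∀ z, 0 < E z) (hD : ∀ z, 0 < E z * G z - F z ^ 2) :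
    ContDiff ℝ ∞ (Om1 E F G) ∧ ContDiff ℝ ∞ (Om2 E F G) := by
  constructor
  · have h1 : ContDiff ℝ ∞ fun z => 2 * E z * dx F z - F z * dx E z - E z * dy E z :=
      (((contDiff_const.mul hE).mul (CON2_dx hF)).sub (hF.mul (CON2_dx hE))).sub
        (hE.mul (CON2_dy hE))
    exact h1.div (CON2_den hE hF hG hD) (CON2_ne hE0 hD)
  · have h1 : ContDiff ℝ ∞ fun z => E z * dx G z - F z * dy E z :=
      (hE.mul (CON2_dx hG)).sub (hF.mul (CON2_dy hE))
    exact h1.div (CON2_den hE hF hG hD) (CON2_ne hE0 hD)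

theorem per_Om (L : Lat) (E F G : ℂ → ℝ) (pE : Per L E) (pF : Per L F) (pG : Per L G) :
    Per L (Om1 E F G) ∧ Per L (Om2 E F G) := by
  refine ⟨⟨fun z => ?_, fun z => ?_⟩, ⟨fun z => ?_, fun z => ?_⟩⟩
  · unfold Om1 dx dy
    rw [pE.1, pF.1, pG.1, CON2_fd pE.1, CON2_fd pF.1]
  · unfold Om1 dx dy
    rw [pE.2, pF.2, pG.2, CON2_fd pE.2, CON2_fd pF.2]
  · unfold Om2 dx dy
    rw [pE.1, pF.1, pG.1, CON2_fd pE.1, CON2_fd pG.1]
  · unfold Om2 dx dy
    rw [pE.2, pF.2, pG.2, CON2_fd pE.2, CON2_fd pG.2]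

theorem exists_flat (L : Lat) (E F G : ℂ → ℝ) (hE : ContDiff ℝ ∞ E) (hF : ContDiff ℝ ∞ F)
    (hG : ContDiff ℝ ∞ G) (pE : Per L E) (pF : Per L F) (pG : Per L G) (hE0 : ∀ z, 0 < E z)
    (hD : ∀ z, 0 < E z * G z - F z ^ 2) :
    ∃ v : ℂ → ℝ, ContDiff ℝ ∞ v ∧ Per L v ∧ ∀ z,
      dx (Om2 (fun z => Real.exp (2 * v z) * E z) (fun z => Real.exp (2 * v z) * F z)
          (fun z => Real.exp (2 * v z) * G z)) z
        = dy (Om1 (fun z => Real.exp (2 * v z) * E z) (fun z => Real.exp (2 * v z) * F z)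
          (fun z => Real.exp (2 * v z) * G z)) z := by
  have hpos : ContDiff ℝ ∞ (fun z => E z * G z - F z ^ 2) := (hE.mul hG).sub (hF.pow 2)
  have hS : ContDiff ℝ ∞ (fun z => √(E z * G z - F z ^ 2)) := hpos.sqrt fun z => (hD z).ne'
  have hS0 : ∀ z, 0 < √(E z * G z - F z ^ 2) := fun z => Real.sqrt_pos.2 (hD z)
  have hSn : ∀ z, √(E z * G z - F z ^ 2) ≠ 0 := fun z => (hS0 z).ne'
  have hG0 : ∀ z, 0 < G z := by
    intro z
    have h1 := hD z
    have h2 := hE0 z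
    have h3 : 0 < E z * G z := by nlinarith [sq_nonneg (F z)]
    exact pos_of_mul_pos_right h3 h2.le |> fun h => h
  obtain ⟨hO1, hO2⟩ := contDiff_Om E F G hE hF hG hE0 hD
  obtain ⟨qO1, qO2⟩ := per_Om L E F G pE pF pG
  have pS : Per L (fun z => √(E z * G z - F z ^ 2)) :=
    ⟨fun z => by simp only [pE.1, pF.1, pG.1], fun z => by simp only [pE.2, pF.2, pG.2]⟩
  obtain ⟨v, hv, pv, h⟩ := elliptic L (fun z => G z / √(E z * G z - F z ^ 2))
    (fun z => -F z / √(E z * G z - F z ^ 2)) (fun z => E z / √(E z * G z - F z ^ 2))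
    (fun z => -Om2 E F G z) (Om1 E F G)
    (hG.div hS hSn) (hF.neg.div hS hSn) (hE.div hS hSn) hO2.neg hO1
    ⟨fun z => by simp only [pE.1, pF.1, pG.1], fun z => by simp only [pE.2, pF.2, pG.2]⟩
    ⟨fun z => by simp only [pE.1, pF.1, pG.1], fun z => by simp only [pE.2, pF.2, pG.2]⟩
    ⟨fun z => by simp only [pE.1, pF.1, pG.1], fun z => by simp only [pE.2, pF.2, pG.2]⟩
    ⟨fun z => congrArg Neg.neg (qO2.1 z), fun z => congrArg Neg.neg (qO2.2 z)⟩ qO1
    (fun z => div_pos (hG0 z) (hS0 z))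
    (fun z => by
      have e : G z / √(E z * G z - F z ^ 2) * (E z / √(E z * G z - F z ^ 2))
          - (-F z / √(E z * G z - F z ^ 2)) ^ 2 = 1 := by
        have h1 : √(E z * G z - F z ^ 2) ^ 2 = E z * G z - F z ^ 2 := Real.sq_sqrt (hD z).le
        have h2 := hSn z
        generalize √(E z * G z - F z ^ 2) = S at h1 h2
        rw [div_mul_div_comm, div_pow, ← pow_two, ← sub_div, div_eq_one_iff_eq (pow_ne_zero 2 h2), h1]
        ring
      rw [e]; norm_num)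
  refine ⟨v, hv, pv, fun z => ?_⟩
  have e1 : Om2 (fun z => Real.exp (2 * v z) * E z) (fun z => Real.exp (2 * v z) * F z)
          (fun z => Real.exp (2 * v z) * G z)
      = fun z => G z / √(E z * G z - F z ^ 2) * dx v z + -F z / √(E z * G z - F z ^ 2) * dy v z
          - -Om2 E F G z := by
    funext z
    rw [Om2_conf E F G v hE hF hG hv hE0 hD z, sub_div]
    ring
  have e2 : Om1 (fun z => Real.exp (2 * v z) * E z) (fun z => Real.exp (2 * v z) * F z)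
          (fun z => Real.exp (2 * v z) * G z)
      = fun z => -(-F z / √(E z * G z - F z ^ 2) * dx v z + E z / √(E z * G z - F z ^ 2) * dy v z
          - Om1 E F G z) := by
    funext z
    rw [Om1_conf E F G v hE hF hG hv hE0 hD z, sub_div]
    ring
  have h3 := h z
  rw [e1, e2]
  have e3 : dy (fun z => -(-F z / √(E z * G z - F z ^ 2) * dx v z
      + E z / √(E z * G z - F z ^ 2) * dy v z - Om1 E F G z)) z
      = -dy (fun z => -F z / √(E z * G z - F z ^ 2) * dx v z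
      + E z / √(E z * G z - F z ^ 2) * dy v z - Om1 E F G z) z := by
    unfold dy
    rw [fderiv_fun_neg]
    rfl
  rw [e3]
  linarith

end P205T.U
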