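import Vale.Agent.P205T.WApi1
import Vale.Agent.P205T.WApi2
import Vale.Agent.P205T.WMult
import Vale.Agent.P205T.WTrans
import Vale.Agent.P205T.WDeriv
import Vale.Agent.P205T.Fourier

/-!
# P205U (helper84): reduction of an arbitrary smooth metric on a torus to the conformal case

`E, F, G` smooth, `Λ`-periodic, positive definite.  Plan.
(E) Elliptic equation `div (A ∇v - β) = 0`, `A` smooth periodic positive definite.  Put `B = 1 - t A`, `|B| ≤ q < 1`
pointwise.  Solve `f = B P f + t β` (`P` = projection to gradients, Fourier multiplier) by iteration on Fourier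
coefficients: contraction in `ℓ²`, bounds in all weighted `ℓ²` norms (commutator `[wt^s, B]` has order `s-1`).
(C) With `A = D⁻¹ [[G, -F], [-F, E]]`, `β = (-Om2, Om1)` the metric `exp(2v) (E, F, G)` is flat.
(G) `P205T.coframe`, `P205T.develop` give `Z` with `|dZ|² = exp(2v) (E,F,G)`; holonomy is trivial; `Z` is a global
diffeomorphism (uniform local sections, path lifting); its periods are independent.
(F) `X = F_conf ∘ Z`.
-/

open Complex ComplexConjugate
open scoped ContDiff

namespace P205T.U

/-- the weight (same as in `P205T.Rapid`) -/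
noncomputable def wt (L : Lat) (n : ℤ × ℤ) : ℝ := 1 + |kx L n| + |ky L n|

/-- multiplication by the symmetric matrix `(b11, b12; b12, b22)` -/
noncomputable def Bop (b11 b12 b22 : V) (F : V × V) : V × V :=
  (conv b11 F.1 + conv b12 F.2, conv b12 F.1 + conv b22 F.2)

/-- projection to gradient fields -/
noncomputable def Pop (L : Lat) (F : V × V) : V × V :=
  (mult (M11 L) F.1 + mult (M12 L) F.2, mult (M12 L) F.1 + mult (M22 L) F.2)

/-- squared weighted `ℓ²` norm -/
noncomputable def N2 (L : Lat) (s : ℕ) (F : V × V) : ℝ :=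
  ∑' n, wt L n ^ (2 * s) * (‖F.1 n‖ ^ 2 + ‖F.2 n‖ ^ 2)

/-- both components rapidly decreasing -/
def RapidP (L : Lat) (F : V × V) : Prop := Rapid L F.1 ∧ Rapid L F.2

/-- `B` is the pointwise matrix with the coefficients `b`, of norm `≤ q` -/
structure BData (L : Lat) (b11 b12 b22 : V) (q : ℝ) : Prop where
  r11 : Rapid L b11
  r12 : Rapid L b12
  r22 : Rapid L b22
  im11 : ∀ z, (ev L z b11).im = 0
  im12 : ∀ z, (ev L z b12).im = 0
  im22 : ∀ z, (ev L z b22).im = 0
  q0 : 0 ≤ q
  q1 : q < 1
  bd : ∀ z (x y : ℝ), ((ev L z b11).re * x + (ev L z b12).re * y) ^ 2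
    + ((ev L z b12).re * x + (ev L z b22).re * y) ^ 2 ≤ q ^ 2 * (x ^ 2 + y ^ 2)

end P205T.U
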