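import Vale.Agent.P205U.Rap

/-! Module SYN: synthesis.  `v z = ev z (mult M1 F.1 + mult M2 F.2)`.  Smoothness: `ev L z c = ev L 0 (T L z c)` (`ev_T`) and
`contDiff_T`.  Derivatives: `ev_mult_hasFDerivAt` (`I kx M1 = M11`, `I ky M1 = I kx M2 = M12`, `I ky M2 = M22`).
For a rapid `c` (not of the form `mult m c`): `HasFDerivAt (fun z => ev L z c)` with the sequences `I kx c`, `I ky c`
(apply `ev_mult_hasFDerivAt` to `c = mult (1/wt) c'`, `c' = wt c`, `exists_lam`).
Last identity: `I kx (M11 F1 + M12 F2) + I ky (M12 F1 + M22 F2) = I kx F1 + I ky F2` for every `n` (also `n = 0`). -/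

open Complex ComplexConjugate
open scoped ContDiff

namespace P205T.U

theorem contDiff_ev (L : Lat) {c : V} (hc : Rapid L c) : ContDiff ℝ ∞ (fun z => ev L z c) := by
  have h1 : (fun z => ev L z c) = fun z => ev L 0 (T L z c) := by
    funext z
    rw [ev_T, zero_add]
  rw [h1]
  exact (ev L 0).contDiff.comp (contDiff_T L c hc)

theorem SYN2_deriv (L : Lat) {c : V} (hc : Rapid L c) :
    ∃ X Y : V, (∀ n, X n = Complex.I * (kx L n : ℂ) * c n) ∧ (∀ n, Y n = Complex.I * (ky L n : ℂ) * c n) ∧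
      ∀ z, HasFDerivAt (fun z => ev L z c)
        (Complex.reCLM.smulRight (ev L z X) + Complex.imCLM.smulRight (ev L z Y)) z := by
  obtain ⟨c', -, hc'⟩ := exists_lam hc 1
  have hw : ∀ n, 1 ≤ wt L n := one_le_wt L
  have hbd : ∀ (f : ℤ × ℤ → ℝ), (∀ n, |f n| ≤ wt L n) →
      Bdd (fun n => Complex.I * (f n : ℂ) * ((1 / wt L n : ℝ) : ℂ)) := by
    intro f hf
    refine ⟨1, fun n => ?_⟩
    have h0 : 0 < wt L n := lt_of_lt_of_le one_pos (hw n)
    rw [norm_mul, norm_mul, Complex.norm_I, one_mul, Complex.norm_real, Complex.norm_real,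
      Real.norm_eq_abs, Real.norm_eq_abs, abs_of_pos (one_div_pos.2 h0), mul_one_div]
    exact (div_le_one h0).2 (hf n)
  have hm : Bdd (fun n => ((1 / wt L n : ℝ) : ℂ)) := by
    refine ⟨1, fun n => ?_⟩
    have h0 : 0 < wt L n := lt_of_lt_of_le one_pos (hw n)
    rw [Complex.norm_real, Real.norm_eq_abs, abs_of_pos (one_div_pos.2 h0)]
    exact (div_le_one h0).2 (hw n)
  have hmx := hbd (kx L) (fun n => by
    unfold wt
    linarith [abs_nonneg (ky L n)])
  have hmy := hbd (ky L) (fun n => by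
    unfold wt
    linarith [abs_nonneg (kx L n)])
  have hne : ∀ n, ((wt L n : ℝ) : ℂ) ≠ 0 := fun n => by
    exact_mod_cast (lt_of_lt_of_le one_pos (hw n)).ne'
  have hcc : mult (fun n => ((1 / wt L n : ℝ) : ℂ)) c' = c := by
    ext n
    rw [mult_apply hm, hc' n]
    have := hne n
    push_cast
    field_simp
  refine ⟨mult (fun n => Complex.I * (kx L n : ℂ) * ((1 / wt L n : ℝ) : ℂ)) c',
    mult (fun n => Complex.I * (ky L n : ℂ) * ((1 / wt L n : ℝ) : ℂ)) c', fun n => ?_, fun n => ?_, fun z => ?_⟩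
  · rw [mult_apply hmx, hc' n]
    have := hne n
    push_cast
    field_simp
  · rw [mult_apply hmy, hc' n]
    have := hne n
    push_cast
    field_simp
  · have h := ev_mult_hasFDerivAt L hm hmx hmy c' z
    rw [hcc] at h
    exact h

theorem SYN2_dx {f : ℂ → ℂ} {X Y z : ℂ}
    (h : HasFDerivAt f (Complex.reCLM.smulRight X + Complex.imCLM.smulRight Y) z) : dx f z = X := by
  unfold dx
  rw [h.fderiv]
  simp

theorem SYN2_dy {f : ℂ → ℂ} {X Y z : ℂ}
    (h : HasFDerivAt f (Complex.reCLM.smulRight X + Complex.imCLM.smulRight Y) z) : dy f z = Y := by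
  unfold dy
  rw [h.fderiv]
  simp

theorem SYN2_id (L : Lat) (n : ℤ × ℤ) (a b : ℂ) :
    Complex.I * (kx L n : ℂ) * (M11 L n * a + M12 L n * b)
      + Complex.I * (ky L n : ℂ) * (M12 L n * a + M22 L n * b)
      = Complex.I * (kx L n : ℂ) * a + Complex.I * (ky L n : ℂ) * b := by
  by_cases hn : n = 0
  · subst hn
    have h1 : kx L 0 = 0 := by simp [kx]
    have h2 : ky L 0 = 0 := by simp [ky]
    rw [h1, h2]
    simp
  · have hk := kk_pos L hn
    have hk' : ((kx L n : ℂ) ^ 2 + (ky L n : ℂ) ^ 2) ≠ 0 := by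
      have : (((kx L n) ^ 2 + (ky L n) ^ 2 : ℝ) : ℂ) ≠ 0 := by exact_mod_cast hk.ne'
      simpa using this
    have h0 : M0 L n = -1 / ((kx L n : ℂ) ^ 2 + (ky L n : ℂ) ^ 2) := by
      rw [WM_M0_ne L hn]
      push_cast
      ring
    unfold M11 M12 M22 M1 M2
    rw [h0]
    field_simp
    ring_nf
    simp only [Complex.I_sq]
    ring

theorem synth (L : Lat) {F : V × V} (hF : RapidP L F) :
    ∃ v : ℂ → ℂ, ContDiff ℝ ∞ v ∧ Per L v ∧
      (∀ z, dx v z = ev L z (Pop L F).1) ∧ (∀ z, dy v z = ev L z (Pop L F).2) ∧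
      ∀ z, dx (fun z => ev L z (Pop L F).1) z + dy (fun z => ev L z (Pop L F).2) z
        = dx (fun z => ev L z F.1) z + dy (fun z => ev L z F.2) z := by
  have hI : ∀ n, Complex.I * (ky L n : ℂ) * M1 L n = M12 L n := by
    intro n
    unfold M12 M2 M1
    ring
  have b1x : Bdd fun n => Complex.I * (kx L n : ℂ) * M1 L n := bdd_M11 L
  have e1y : (fun n => Complex.I * (ky L n : ℂ) * M1 L n) = M12 L := funext hI
  have b1y : Bdd fun n => Complex.I * (ky L n : ℂ) * M1 L n := by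
    rw [e1y]
    exact bdd_M12 L
  have b2x : Bdd fun n => Complex.I * (kx L n : ℂ) * M2 L n := bdd_M12 L
  have b2y : Bdd fun n => Complex.I * (ky L n : ℂ) * M2 L n := bdd_M22 L
  have hr : Rapid L (mult (M1 L) F.1 + mult (M2 L) F.2) :=
    rapid_add (rapid_mult hF.1 (bdd_M1 L)) (rapid_mult hF.2 (bdd_M2 L))
  have hd : ∀ z, HasFDerivAt (fun z => ev L z (mult (M1 L) F.1 + mult (M2 L) F.2))
      (Complex.reCLM.smulRight (ev L z (Pop L F).1) + Complex.imCLM.smulRight (ev L z (Pop L F).2)) z := by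
    intro z
    have h1 := ev_mult_hasFDerivAt L (bdd_M1 L) b1x b1y F.1 z
    have h2 := ev_mult_hasFDerivAt L (bdd_M2 L) b2x b2y F.2 z
    rw [e1y] at h1
    have h3 := h1.fun_add h2
    have e : (fun z => ev L z (mult (M1 L) F.1) + ev L z (mult (M2 L) F.2))
        = fun z => ev L z (mult (M1 L) F.1 + mult (M2 L) F.2) := by
      funext z
      rw [map_add]
    rw [e] at h3
    refine h3.congr_fderiv ?_
    show _ = Complex.reCLM.smulRight (ev L z (mult (M11 L) F.1 + mult (M12 L) F.2))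
      + Complex.imCLM.smulRight (ev L z (mult (M12 L) F.1 + mult (M22 L) F.2))
    rw [map_add, map_add]
    ext v
    simp only [_root_.add_apply, ContinuousLinearMap.smulRight_apply, smul_add]
    change _ = _ + Complex.reCLM v • ev L z (mult (fun n => Complex.I * (kx L n : ℂ) * M2 L n) F.2)
      + (_ + Complex.imCLM v • ev L z (mult (fun n => Complex.I * (ky L n : ℂ) * M2 L n) F.2))
    change Complex.reCLM v • ev L z (mult (M11 L) F.1) + _ + _ = _
    abel
  refine ⟨fun z => ev L z (mult (M1 L) F.1 + mult (M2 L) F.2), contDiff_ev L hr, ev_per L _,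
    fun z => SYN2_dx (hd z), fun z => SYN2_dy (hd z), fun z => ?_⟩
  have hP1 : Rapid L (Pop L F).1 := rapid_add (rapid_mult hF.1 (bdd_M11 L)) (rapid_mult hF.2 (bdd_M12 L))
  have hP2 : Rapid L (Pop L F).2 := rapid_add (rapid_mult hF.1 (bdd_M12 L)) (rapid_mult hF.2 (bdd_M22 L))
  obtain ⟨X1, Y1, hX1, hY1, hd1⟩ := SYN2_deriv L hP1
  obtain ⟨X2, Y2, hX2, hY2, hd2⟩ := SYN2_deriv L hP2
  obtain ⟨X3, Y3, hX3, hY3, hd3⟩ := SYN2_deriv L hF.1
  obtain ⟨X4, Y4, hX4, hY4, hd4⟩ := SYN2_deriv L hF.2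
  rw [SYN2_dx (hd1 z), SYN2_dy (hd2 z), SYN2_dx (hd3 z), SYN2_dy (hd4 z), ← map_add, ← map_add]
  congr 1
  ext n
  have e1 : (Pop L F).1 n = M11 L n * F.1 n + M12 L n * F.2 n := by
    show (mult (M11 L) F.1 + mult (M12 L) F.2 : V) n = _
    rw [lp.coeFn_add, Pi.add_apply, mult_apply (bdd_M11 L), mult_apply (bdd_M12 L)]
  have e2 : (Pop L F).2 n = M12 L n * F.1 n + M22 L n * F.2 n := by
    show (mult (M12 L) F.1 + mult (M22 L) F.2 : V) n = _
    rw [lp.coeFn_add, Pi.add_apply, mult_apply (bdd_M12 L), mult_apply (bdd_M22 L)]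
  rw [lp.coeFn_add, lp.coeFn_add, Pi.add_apply, Pi.add_apply, hX1, hY2, hX3, hY4, e1, e2]
  exact SYN2_id L n _ _

end P205T.U
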