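import Vale.Agent.P205U.Fix
import Vale.Agent.P205U.Synth
import Vale.Agent.P205T.GFlatAux

/-! Module ELL: the elliptic equation.
`exists_t`: `t = 1/(2 sup tr A)`...: eigenvalues of `A` lie in `[δ, M]` by compactness (continuous periodic functions
on the closed fundamental parallelogram attain their bounds; `λ_min ≥ det/tr`); for `t = 1/M`, `B = 1 - tA` is
symmetric with eigenvalues in `[0, 1 - tδ]`.  (Explicitly `|Bξ|² = |ξ|² - 2t⟨Aξ,ξ⟩ + t²|Aξ|²` and `|Aξ|² ≤ (tr A)⟨Aξ,ξ⟩`,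
so `|Bξ|² ≤ |ξ|² - t⟨Aξ,ξ⟩ ≤ (1 - tδ)|ξ|²` for `t = 1/sup tr A`.)
`elliptic`: `exists_fourier` for `1 - tA11, -tA12, 1 - tA22, tβ1, tβ2`; `exists_fixed`, `synth`, `v := Re`. -/

open Complex ComplexConjugate
open scoped ContDiff

namespace P205T.U

/-- a continuous periodic function attains its maximum. -/
private theorem ell1_max (L : Lat) {f : ℂ → ℝ} (hf : Continuous f) (hp : Per L f) :
    ∃ z0, ∀ z, f z ≤ f z0 := by
  have hc : IsCompact (Metric.closedBall (0 : ℂ) (‖L.ω₁‖ + ‖L.ω₂‖)) := isCompact_closedBall _ _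
  have hne : (Metric.closedBall (0 : ℂ) (‖L.ω₁‖ + ‖L.ω₂‖)).Nonempty :=
    ⟨0, Metric.mem_closedBall_self (by positivity)⟩
  obtain ⟨z0, -, h0⟩ := hc.exists_isMaxOn hne hf.continuousOn
  refine ⟨z0, fun z => ?_⟩
  obtain ⟨m, n, hmn⟩ := gg_domain L z
  rw [← gg_per_eq hp z m n]
  exact h0 hmn

private theorem ell1_alg {a b c t δ x y : ℝ} (ht : 0 < t) (h1 : t * (a + c) ≤ 1)
    (hT : 0 < a + c) (hD0 : 0 < a * c - b ^ 2) (hδ : δ * (a + c) ≤ a * c - b ^ 2) :
    ((1 - t * a) * x + (- t * b) * y) ^ 2 + ((- t * b) * x + (1 - t * c) * y) ^ 2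
      ≤ (1 - t * δ) * (x ^ 2 + y ^ 2) := by
  set Q := a * x ^ 2 + 2 * b * x * y + c * y ^ 2 with hQ
  have hN : 0 ≤ x ^ 2 + y ^ 2 := by positivity
  -- `tr Q - det |ξ|² = |Aξ|²`
  have e1 : (a + c) * Q - (a * c - b ^ 2) * (x ^ 2 + y ^ 2)
      = (a * x + b * y) ^ 2 + (b * x + c * y) ^ 2 := by rw [hQ]; ring
  have h2 : (a * c - b ^ 2) * (x ^ 2 + y ^ 2) ≤ (a + c) * Q := by nlinarith [sq_nonneg (a * x + b * y), sq_nonneg (b * x + c * y)]
  have h3 : δ * (x ^ 2 + y ^ 2) ≤ Q := by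
    have h4 : δ * (a + c) * (x ^ 2 + y ^ 2) ≤ (a + c) * Q :=
      (mul_le_mul_of_nonneg_right hδ hN).trans h2
    have h5 : (a + c) * (δ * (x ^ 2 + y ^ 2)) ≤ (a + c) * Q := by linarith
    exact le_of_mul_le_mul_left h5 hT
  have hQ0 : 0 ≤ Q := by
    have h4 : 0 ≤ (a + c) * Q := (mul_nonneg hD0.le hN).trans h2
    exact nonneg_of_mul_nonneg_right h4 hT
  have e2 : ((1 - t * a) * x + (- t * b) * y) ^ 2 + ((- t * b) * x + (1 - t * c) * y) ^ 2
      = (x ^ 2 + y ^ 2) - 2 * t * Q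
        + t ^ 2 * ((a + c) * Q - (a * c - b ^ 2) * (x ^ 2 + y ^ 2)) := by rw [hQ]; ring
  rw [e2]
  have h6 : t * (a + c) * (t * Q) ≤ 1 * (t * Q) :=
    mul_le_mul_of_nonneg_right h1 (by positivity)
  have h7 : 0 ≤ t ^ 2 * ((a * c - b ^ 2) * (x ^ 2 + y ^ 2)) := by positivity
  have h8 : t * (δ * (x ^ 2 + y ^ 2)) ≤ t * Q := mul_le_mul_of_nonneg_left h3 ht.le
  nlinarith

theorem exists_t (L : Lat) (A11 A12 A22 : ℂ → ℝ) (h11 : Continuous A11) (h12 : Continuous A12)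
    (h22 : Continuous A22) (p11 : Per L A11) (p12 : Per L A12) (p22 : Per L A22) (hA : ∀ z, 0 < A11 z)
    (hD : ∀ z, 0 < A11 z * A22 z - A12 z ^ 2) :
    ∃ t > 0, ∃ q : ℝ, 0 ≤ q ∧ q < 1 ∧ ∀ z (x y : ℝ),
      ((1 - t * A11 z) * x + (- t * A12 z) * y) ^ 2 + ((- t * A12 z) * x + (1 - t * A22 z) * y) ^ 2
        ≤ q ^ 2 * (x ^ 2 + y ^ 2) := by
  have h22p : ∀ z, 0 < A22 z := by
    intro z
    have h1 := hD z
    have h2 : 0 < A11 z * A22 z := by nlinarith [sq_nonneg (A12 z)]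
    exact (mul_pos_iff_of_pos_left (hA z)).1 h2
  have hT : ∀ z, 0 < A11 z + A22 z := fun z => add_pos (hA z) (h22p z)
  obtain ⟨z1, hz1⟩ := ell1_max L (f := fun z => A11 z + A22 z) (h11.add h22)
    ⟨fun z => by simp only [p11.1 z, p22.1 z], fun z => by simp only [p11.2 z, p22.2 z]⟩
  obtain ⟨z2, hz2⟩ := ell1_max L
    (f := fun z => -((A11 z * A22 z - A12 z ^ 2) / (A11 z + A22 z)))
    ((((h11.mul h22).sub (h12.pow 2)).div (h11.add h22) (fun z => (hT z).ne')).neg)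
    ⟨fun z => by simp only [p11.1 z, p22.1 z, p12.1 z],
      fun z => by simp only [p11.2 z, p22.2 z, p12.2 z]⟩
  set M := A11 z1 + A22 z1 with hM
  set δ := (A11 z2 * A22 z2 - A12 z2 ^ 2) / (A11 z2 + A22 z2) with hδ
  have hM0 : 0 < M := hT z1
  have hδ0 : 0 < δ := div_pos (hD z2) (hT z2)
  have hδM : δ ≤ M := by
    have h1 : δ ≤ A11 z2 + A22 z2 := by
      rw [hδ, div_le_iff₀ (hT z2)]
      nlinarith [sq_nonneg (A12 z2), mul_pos (hA z2) (h22p z2), sq_nonneg (A11 z2), sq_nonneg (A22 z2)]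
    exact h1.trans (hz1 z2)
  have hq0 : 0 ≤ 1 - 1 / M * δ := by
    have : 1 / M * δ ≤ 1 := by
      rw [one_div, inv_mul_le_iff₀ hM0]; linarith
    linarith
  have hq1 : 1 - 1 / M * δ < 1 := by
    have : 0 < 1 / M * δ := by positivity
    linarith
  refine ⟨1 / M, by positivity, √(1 - 1 / M * δ), Real.sqrt_nonneg _, ?_, ?_⟩
  · rw [Real.sqrt_lt' one_pos]; linarith
  · intro z x y
    rw [Real.sq_sqrt hq0]
    apply ell1_alg (by positivity) _ (hT z) (hD z)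
    · have h1 : δ ≤ (A11 z * A22 z - A12 z ^ 2) / (A11 z + A22 z) := by
        have := hz2 z
        linarith
      rwa [le_div_iff₀ (hT z)] at h1
    · rw [one_div, inv_mul_le_iff₀ hM0]
      have := hz1 z
      linarith

/-- derivative of the real part -/
private theorem ELL2_dx_re {v : ℂ → ℂ} {z : ℂ} (hv : DifferentiableAt ℝ v z) :
    dx (fun z => (v z).re) z = (dx v z).re := by
  have h : HasFDerivAt (fun z => (v z).re) (Complex.reCLM.comp (fderiv ℝ v z)) z :=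
    Complex.reCLM.hasFDerivAt.comp z hv.hasFDerivAt
  unfold dx
  rw [h.fderiv]
  rfl

private theorem ELL2_dy_re {v : ℂ → ℂ} {z : ℂ} (hv : DifferentiableAt ℝ v z) :
    dy (fun z => (v z).re) z = (dy v z).re := by
  have h : HasFDerivAt (fun z => (v z).re) (Complex.reCLM.comp (fderiv ℝ v z)) z :=
    Complex.reCLM.hasFDerivAt.comp z hv.hasFDerivAt
  unfold dy
  rw [h.fderiv]
  rfl

private theorem ELL2_dx_lin {f g : ℂ → ℂ} {z : ℂ} (t : ℝ) (hf : DifferentiableAt ℝ f z)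
    (hg : DifferentiableAt ℝ g z) :
    dx (fun z => t * ((g z).re - (f z).re)) z = t * ((dx g z).re - (dx f z).re) := by
  have h1 : HasFDerivAt (fun z => (f z).re) (Complex.reCLM.comp (fderiv ℝ f z)) z :=
    Complex.reCLM.hasFDerivAt.comp z hf.hasFDerivAt
  have h2 : HasFDerivAt (fun z => (g z).re) (Complex.reCLM.comp (fderiv ℝ g z)) z :=
    Complex.reCLM.hasFDerivAt.comp z hg.hasFDerivAt
  have h3 : HasFDerivAt (fun z => t * ((g z).re - (f z).re))
      (t • (Complex.reCLM.comp (fderiv ℝ g z) - Complex.reCLM.comp (fderiv ℝ f z))) z :=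
    (h2.sub h1).const_mul t
  unfold dx
  rw [h3.fderiv]
  rfl

private theorem ELL2_dy_lin {f g : ℂ → ℂ} {z : ℂ} (t : ℝ) (hf : DifferentiableAt ℝ f z)
    (hg : DifferentiableAt ℝ g z) :
    dy (fun z => t * ((g z).re - (f z).re)) z = t * ((dy g z).re - (dy f z).re) := by
  have h1 : HasFDerivAt (fun z => (f z).re) (Complex.reCLM.comp (fderiv ℝ f z)) z :=
    Complex.reCLM.hasFDerivAt.comp z hf.hasFDerivAt
  have h2 : HasFDerivAt (fun z => (g z).re) (Complex.reCLM.comp (fderiv ℝ g z)) z :=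
    Complex.reCLM.hasFDerivAt.comp z hg.hasFDerivAt
  have h3 : HasFDerivAt (fun z => t * ((g z).re - (f z).re))
      (t • (Complex.reCLM.comp (fderiv ℝ g z) - Complex.reCLM.comp (fderiv ℝ f z))) z :=
    (h2.sub h1).const_mul t
  unfold dy
  rw [h3.fderiv]
  rfl

/-- the data of the iteration -/
private theorem ELL2_data (L : Lat) (A11 A12 A22 : ℂ → ℝ) {t q : ℝ}
    (hq0 : 0 ≤ q) (hq1 : q < 1)
    (hb : ∀ z (x y : ℝ),
      ((1 - t * A11 z) * x + (- t * A12 z) * y) ^ 2 + ((- t * A12 z) * x + (1 - t * A22 z) * y) ^ 2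
        ≤ q ^ 2 * (x ^ 2 + y ^ 2)) {b11 b12 b22 : V} (r11 : Rapid L b11) (r12 : Rapid L b12)
    (r22 : Rapid L b22) (e11 : ∀ z, ev L z b11 = ((1 - t * A11 z : ℝ) : ℂ))
    (e12 : ∀ z, ev L z b12 = ((- t * A12 z : ℝ) : ℂ))
    (e22 : ∀ z, ev L z b22 = ((1 - t * A22 z : ℝ) : ℂ)) : BData L b11 b12 b22 q where
  r11 := r11
  r12 := r12
  r22 := r22
  im11 := fun z => by rw [e11 z]; exact Complex.ofReal_im _
  im12 := fun z => by rw [e12 z]; exact Complex.ofReal_im _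
  im22 := fun z => by rw [e22 z]; exact Complex.ofReal_im _
  q0 := hq0
  q1 := hq1
  bd := fun z x y => by
    rw [e11 z, e12 z, e22 z, Complex.ofReal_re, Complex.ofReal_re, Complex.ofReal_re]
    exact hb z x y

private theorem ELL2_alg {t a b c : ℝ} (ht : 0 < t) {f g h : ℂ}
    (hf : f = ((1 - t * a : ℝ) : ℂ) * g + ((- t * b : ℝ) : ℂ) * h + ((t * c : ℝ) : ℂ)) :
    a * g.re + b * h.re - c = t⁻¹ * (g.re - f.re) := by
  have h1 : f.re = (1 - t * a) * g.re + (- t * b) * h.re + t * c := by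
    rw [hf, Complex.add_re, Complex.add_re, Complex.re_ofReal_mul, Complex.re_ofReal_mul,
      Complex.ofReal_re]
  rw [h1]
  field_simp
  ring

private theorem ELL2_alg' {t a b c : ℝ} (ht : 0 < t) {f g h : ℂ}
    (hf : f = ((- t * a : ℝ) : ℂ) * g + ((1 - t * b : ℝ) : ℂ) * h + ((t * c : ℝ) : ℂ)) :
    a * g.re + b * h.re - c = t⁻¹ * (h.re - f.re) := by
  have h1 : f.re = (- t * a) * g.re + (1 - t * b) * h.re + t * c := by
    rw [hf, Complex.add_re, Complex.add_re, Complex.re_ofReal_mul, Complex.re_ofReal_mul,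
      Complex.ofReal_re]
  rw [h1]
  field_simp
  ring

private theorem ELL2_pop {L : Lat} {F : V × V} (hF : RapidP L F) : RapidP L (Pop L F) :=
  ⟨rapid_add (rapid_mult hF.1 (bdd_M11 L)) (rapid_mult hF.2 (bdd_M12 L)),
    rapid_add (rapid_mult hF.1 (bdd_M12 L)) (rapid_mult hF.2 (bdd_M22 L))⟩

theorem elliptic (L : Lat) (A11 A12 A22 β1 β2 : ℂ → ℝ) (h11 : ContDiff ℝ ∞ A11) (h12 : ContDiff ℝ ∞ A12)
    (h22 : ContDiff ℝ ∞ A22) (hβ1 : ContDiff ℝ ∞ β1) (hβ2 : ContDiff ℝ ∞ β2)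
    (p11 : Per L A11) (p12 : Per L A12) (p22 : Per L A22) (pβ1 : Per L β1) (pβ2 : Per L β2)
    (hA : ∀ z, 0 < A11 z) (hD : ∀ z, 0 < A11 z * A22 z - A12 z ^ 2) :
    ∃ v : ℂ → ℝ, ContDiff ℝ ∞ v ∧ Per L v ∧ ∀ z,
      dx (fun z => A11 z * dx v z + A12 z * dy v z - β1 z) z
        + dy (fun z => A12 z * dx v z + A22 z * dy v z - β2 z) z = 0 := by
  obtain ⟨t, ht, q, hq0, hq1, hb⟩ := exists_t L A11 A12 A22 h11.continuous h12.continuous
    h22.continuous p11 p12 p22 hA hD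
  obtain ⟨b11, r11, -, e11⟩ := exists_fourier L (fun z => 1 - t * A11 z)
    (contDiff_const.sub (contDiff_const.mul h11))
    ⟨fun z => by simp only [p11.1 z], fun z => by simp only [p11.2 z]⟩
  obtain ⟨b12, r12, -, e12⟩ := exists_fourier L (fun z => - t * A12 z)
    (contDiff_const.mul h12)
    ⟨fun z => by simp only [p12.1 z], fun z => by simp only [p12.2 z]⟩
  obtain ⟨b22, r22, -, e22⟩ := exists_fourier L (fun z => 1 - t * A22 z)
    (contDiff_const.sub (contDiff_const.mul h22))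
    ⟨fun z => by simp only [p22.1 z], fun z => by simp only [p22.2 z]⟩
  obtain ⟨c1, s1, -, f1⟩ := exists_fourier L (fun z => t * β1 z)
    (contDiff_const.mul hβ1)
    ⟨fun z => by simp only [pβ1.1 z], fun z => by simp only [pβ1.2 z]⟩
  obtain ⟨c2, s2, -, f2⟩ := exists_fourier L (fun z => t * β2 z)
    (contDiff_const.mul hβ2)
    ⟨fun z => by simp only [pβ2.1 z], fun z => by simp only [pβ2.2 z]⟩
  have hBD := ELL2_data L A11 A12 A22 hq0 hq1 hb r11 r12 r22 e11 e12 e22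
  obtain ⟨F, hF, hFe⟩ := exists_fixed (β := (c1, c2)) hBD ⟨s1, s2⟩
  obtain ⟨v, hv, hvp, hvx, hvy, hdiv⟩ := synth L hF
  have hG := ELL2_pop hF
  have hdv : Differentiable ℝ v := hv.differentiable (by simp)
  have hdF1 : Differentiable ℝ (fun z => ev L z F.1) :=
    (contDiff_ev L hF.1).differentiable (by simp)
  have hdF2 : Differentiable ℝ (fun z => ev L z F.2) :=
    (contDiff_ev L hF.2).differentiable (by simp)
  have hdG1 : Differentiable ℝ (fun z => ev L z (Pop L F).1) :=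
    (contDiff_ev L hG.1).differentiable (by simp)
  have hdG2 : Differentiable ℝ (fun z => ev L z (Pop L F).2) :=
    (contDiff_ev L hG.2).differentiable (by simp)
  have hF1 : ∀ z, ev L z F.1 = ((1 - t * A11 z : ℝ) : ℂ) * ev L z (Pop L F).1
      + ((- t * A12 z : ℝ) : ℂ) * ev L z (Pop L F).2 + ((t * β1 z : ℝ) : ℂ) := by
    intro z
    have h1 : F.1 = conv b11 (Pop L F).1 + conv b12 (Pop L F).2 + c1 := congrArg Prod.fst hFe
    have h2 : ev L z F.1 = ev L z (conv b11 (Pop L F).1 + conv b12 (Pop L F).2 + c1) :=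
      congrArg (fun c => ev L z c) h1
    rw [h2, map_add, map_add, ev_conv, ev_conv, e11 z, e12 z, f1 z]
  have hF2 : ∀ z, ev L z F.2 = ((- t * A12 z : ℝ) : ℂ) * ev L z (Pop L F).1
      + ((1 - t * A22 z : ℝ) : ℂ) * ev L z (Pop L F).2 + ((t * β2 z : ℝ) : ℂ) := by
    intro z
    have h1 : F.2 = conv b12 (Pop L F).1 + conv b22 (Pop L F).2 + c2 := congrArg Prod.snd hFe
    have h2 : ev L z F.2 = ev L z (conv b12 (Pop L F).1 + conv b22 (Pop L F).2 + c2) :=
      congrArg (fun c => ev L z c) h1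
    rw [h2, map_add, map_add, ev_conv, ev_conv, e12 z, e22 z, f2 z]
  refine ⟨fun z => (v z).re, Complex.reCLM.contDiff.comp hv,
    ⟨fun z => by simp only [hvp.1 z], fun z => by simp only [hvp.2 z]⟩, ?_⟩
  intro z
  have e1 : (fun z => A11 z * dx (fun z => (v z).re) z + A12 z * dy (fun z => (v z).re) z - β1 z)
      = fun z => t⁻¹ * ((ev L z (Pop L F).1).re - (ev L z F.1).re) := by
    funext z
    rw [ELL2_dx_re (hdv z), ELL2_dy_re (hdv z), hvx z, hvy z]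
    exact ELL2_alg ht (hF1 z)
  have e2 : (fun z => A12 z * dx (fun z => (v z).re) z + A22 z * dy (fun z => (v z).re) z - β2 z)
      = fun z => t⁻¹ * ((ev L z (Pop L F).2).re - (ev L z F.2).re) := by
    funext z
    rw [ELL2_dx_re (hdv z), ELL2_dy_re (hdv z), hvx z, hvy z]
    exact ELL2_alg' ht (hF2 z)
  rw [e1, e2, ELL2_dx_lin t⁻¹ (hdF1 z) (hdG1 z), ELL2_dy_lin t⁻¹ (hdF2 z) (hdG2 z)]
  have h3 := congrArg Complex.re (hdiv z)
  rw [Complex.add_re, Complex.add_re] at h3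
  have h4 : t⁻¹ * ((dx (fun z => ev L z (Pop L F).1) z).re - (dx (fun z => ev L z F.1) z).re)
      + t⁻¹ * ((dy (fun z => ev L z (Pop L F).2) z).re - (dy (fun z => ev L z F.2) z).re)
      = t⁻¹ * (((dx (fun z => ev L z (Pop L F).1) z).re + (dy (fun z => ev L z (Pop L F).2) z).re)
        - ((dx (fun z => ev L z F.1) z).re + (dy (fun z => ev L z F.2) z).re)) := by ring
  rw [h4, h3, sub_self, mul_zero]

end P205T.U
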