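import Vale.Agent.P205U.Step

/-! Module FIX: existence of the fixed point.
`F 0 = 0`, `F (n+1) = B P (F n) + β`.  With `q₁ = (1+q²)/2 < 1`: by induction on `s` (inner induction on `n`)
`N2 s (F n) ≤ K s` for all `n`.  Differences `D n = F (n+1) - F n = (B P)^n β`: `N2 0 (D n) ≤ q^(2n) N2 0 β`
(`l2_contract`, `N2_Pop`; `Bop`, `Pop` are additive), so every coefficient converges (`‖c‖ ≤ q^n √..`), with
`wt n ^ s * ‖limit‖ ≤ √(K s)`; `exists_of_bound` gives `F`.  Convergence `F n → F` in `V × V` by dominated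
convergence (`tendsto_tsum_of_dominated_convergence`, dominating `2 √(K 4) / wt^4`, `summable_wt`;
the norm of `V` is the sum of the norms, `lp.norm_eq_tsum_rpow`), then continuity of `B P`. -/

open Complex ComplexConjugate
open scoped ContDiff

namespace P205T.U

private theorem fix1_N2_zero (L : Lat) (s : ℕ) : N2 L s 0 = 0 := by
  unfold N2
  have h : ∀ n : ℤ × ℤ, wt L n ^ (2 * s) * (‖((0 : V × V).1) n‖ ^ 2 + ‖((0 : V × V).2) n‖ ^ 2) = 0 := by
    intro n
    have h1 : ((0 : V × V).1) n = 0 := rfl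
    have h2 : ((0 : V × V).2) n = 0 := rfl
    rw [h1, h2, norm_zero]
    norm_num
  simp only [h]
  exact tsum_zero

private theorem fix1_rapid_zero (L : Lat) : RapidP L 0 := by
  have h : Rapid L (0 : V) := by
    intro N
    have h1 : ∀ n : ℤ × ℤ, ‖((0 : V)) n‖ = 0 := by
      intro n
      have h2 : ((0 : V)) n = 0 := rfl
      rw [h2, norm_zero]
    simp only [h1, mul_zero]
    exact summable_zero
  exact ⟨h, h⟩

private theorem fix1_geo {x : ℕ → ℝ} {r K : ℝ} (r0 : 0 ≤ r) (r1 : r < 1) (K0 : 0 ≤ K)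
    (h0 : x 0 = 0) (h : ∀ n, x (n + 1) ≤ r * x n + K) (n : ℕ) : x n ≤ K / (1 - r) := by
  have hr : 0 < 1 - r := by linarith
  induction n with
  | zero => rw [h0]; positivity
  | succ n ih =>
    have h2 : r * x n ≤ r * (K / (1 - r)) := mul_le_mul_of_nonneg_left ih r0
    have h3 : r * (K / (1 - r)) + K = K / (1 - r) := by
      field_simp
      ring
    linarith [h n]

theorem iter_bound {L : Lat} {b11 b12 b22 : V} {q : ℝ} (hb : BData L b11 b12 b22 q) {β : V × V}
    (hβ : RapidP L β) (f : ℕ → V × V) (h0 : f 0 = 0)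
    (hs : ∀ n, f (n + 1) = Bop b11 b12 b22 (Pop L (f n)) + β) :
    (∀ n, RapidP L (f n)) ∧ ∀ s, ∃ K : ℝ, 0 ≤ K ∧ ∀ n, N2 L s (f n) ≤ K := by
  have hR : ∀ n, RapidP L (f n) := by
    intro n
    induction n with
    | zero => rw [h0]; exact fix1_rapid_zero L
    | succ n ih =>
      rw [hs]
      have h1 := rapid_Bop hb (rapid_Pop ih)
      exact ⟨rapid_add h1.1 hβ.1, rapid_add h1.2 hβ.2⟩
  refine ⟨hR, ?_⟩
  have hq0 := hb.q0
  have hq1 := hb.q1
  have hqq : q ^ 2 < 1 := by nlinarith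
  obtain ⟨q₁, hq2, hq3⟩ := exists_between hqq
  have hq4 : 0 ≤ q₁ := (sq_nonneg q).trans hq2.le
  intro s
  induction s with
  | zero =>
    obtain ⟨K, hK0, hK⟩ := step_zero hb hβ hq2
    refine ⟨K / (1 - q₁), div_nonneg hK0 (by linarith), fun n => ?_⟩
    refine fix1_geo (x := fun n => N2 L 0 (f n)) hq4 hq3 hK0 ?_ (fun n => ?_) n
    · show N2 L 0 (f 0) = 0
      rw [h0]
      exact fix1_N2_zero L 0
    · show N2 L 0 (f (n + 1)) ≤ q₁ * N2 L 0 (f n) + K
      rw [hs]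
      exact hK _ (hR n)
  | succ s ih =>
    obtain ⟨K', hK'0, hK'⟩ := ih
    obtain ⟨K, hK0, hK⟩ := step_succ hb hβ hq2 s
    have hKK : 0 ≤ K * (K' + 1) := by positivity
    refine ⟨K * (K' + 1) / (1 - q₁), div_nonneg hKK (by linarith), fun n => ?_⟩
    refine fix1_geo (x := fun n => N2 L (s + 1) (f n)) hq4 hq3 hKK ?_ (fun n => ?_) n
    · show N2 L (s + 1) (f 0) = 0
      rw [h0]
      exact fix1_N2_zero L (s + 1)
    · show N2 L (s + 1) (f (n + 1)) ≤ q₁ * N2 L (s + 1) (f n) + K * (K' + 1)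
      rw [hs]
      refine (hK _ (hR n)).trans ?_
      have h1 : K * (N2 L s (f n) + 1) ≤ K * (K' + 1) :=
        mul_le_mul_of_nonneg_left (by linarith [hK' n]) hK0
      linarith

theorem iter_diff {L : Lat} {b11 b12 b22 : V} {q : ℝ} (hb : BData L b11 b12 b22 q) {β : V × V}
    (hβ : RapidP L β) (f : ℕ → V × V) (h0 : f 0 = 0)
    (hs : ∀ n, f (n + 1) = Bop b11 b12 b22 (Pop L (f n)) + β) (n : ℕ) :
    N2 L 0 (f (n + 1) - f n) ≤ q ^ (2 * n) * N2 L 0 β := by
  have hR := (iter_bound hb hβ f h0 hs).1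
  induction n with
  | zero =>
    have e : f (0 + 1) - f 0 = β := by
      rw [hs, h0, sub_zero]
      have e1 : Bop b11 b12 b22 (Pop L 0) = 0 := by
        unfold Bop Pop
        simp only [Prod.fst_zero, Prod.snd_zero, map_zero, add_zero]
        rfl
      rw [e1, zero_add]
    rw [e, mul_zero, pow_zero, one_mul]
  | succ n ih =>
    have hD : RapidP L (f (n + 1) - f n) := by
      have e2 : f (n + 1) - f n = f (n + 1) + (-1 : ℝ) • f n := by
        rw [neg_one_smul, sub_eq_add_neg]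
      rw [e2]
      exact ⟨rapid_add (hR (n + 1)).1 (rapid_smul (hR n).1 (-1)),
        rapid_add (hR (n + 1)).2 (rapid_smul (hR n).2 (-1))⟩
    have e : f (n + 1 + 1) - f (n + 1) = Bop b11 b12 b22 (Pop L (f (n + 1) - f n)) := by
      have h1 := hs (n + 1)
      have h2 := hs n
      calc f (n + 1 + 1) - f (n + 1)
          = (Bop b11 b12 b22 (Pop L (f (n + 1))) + β) - (Bop b11 b12 b22 (Pop L (f n)) + β) := by
            rw [h1, h2]
        _ = Bop b11 b12 b22 (Pop L (f (n + 1))) - Bop b11 b12 b22 (Pop L (f n)) := by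
            rw [add_sub_add_right_eq_sub]
        _ = _ := by
            unfold Bop Pop
            refine Prod.ext ?_ ?_
            · simp only [Prod.fst_sub, Prod.snd_sub, map_sub, map_add]
              abel
            · simp only [Prod.fst_sub, Prod.snd_sub, map_sub, map_add]
              abel
    rw [e]
    calc N2 L 0 (Bop b11 b12 b22 (Pop L (f (n + 1) - f n)))
        ≤ q ^ 2 * N2 L 0 (Pop L (f (n + 1) - f n)) := l2_contract L hb _
      _ ≤ q ^ 2 * N2 L 0 (f (n + 1) - f n) :=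
          mul_le_mul_of_nonneg_left (N2_Pop L 0 hD) (sq_nonneg q)
      _ ≤ q ^ 2 * (q ^ (2 * n) * N2 L 0 β) := mul_le_mul_of_nonneg_left ih (sq_nonneg q)
      _ = q ^ (2 * (n + 1)) * N2 L 0 β := by ring

private theorem fix2_term {L : Lat} {s : ℕ} {G : V × V}
    (h1 : Summable fun n => wt L n ^ (2 * s) * ‖G.1 n‖ ^ 2)
    (h2 : Summable fun n => wt L n ^ (2 * s) * ‖G.2 n‖ ^ 2) (m : ℤ × ℤ) :
    wt L m ^ (2 * s) * (‖G.1 m‖ ^ 2 + ‖G.2 m‖ ^ 2) ≤ N2 L s G := by
  unfold N2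
  have h : Summable fun n => wt L n ^ (2 * s) * (‖G.1 n‖ ^ 2 + ‖G.2 n‖ ^ 2) := by
    simpa [mul_add] using h1.add h2
  refine h.le_tsum m (fun n _ => ?_)
  have : 0 ≤ wt L n := le_trans zero_le_one (one_le_wt L n)
  positivity

/-- scalar limit lemma -/
private theorem fix2_lim {a : ℕ → ℂ} {q C : ℝ} (q0 : 0 ≤ q) (q1 : q < 1)
    (h : ∀ n, ‖a (n + 1) - a n‖ ≤ C * q ^ n) : ∃ l, Filter.Tendsto a Filter.atTop (nhds l) := by
  have hc : CauchySeq a := by
    refine cauchySeq_of_le_geometric q C q1 (fun n => ?_)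
    rw [dist_comm, dist_eq_norm]
    exact h n
  exact cauchySeq_tendsto_of_complete hc

private theorem fix2_conv {L : Lat} {g : ℕ → V} {c : V} {K : ℝ}
    (hl : ∀ m, Filter.Tendsto (fun n => g n m) Filter.atTop (nhds (c m)))
    (hK : ∀ n m, wt L m ^ 4 * ‖g n m‖ ≤ K) (hc : ∀ m, wt L m ^ 4 * ‖c m‖ ≤ K) :
    Filter.Tendsto g Filter.atTop (nhds c) := by
  rw [tendsto_iff_norm_sub_tendsto_zero]
  have e : ∀ n, ‖g n - c‖ = ∑' m, ‖g n m - c m‖ := by
    intro n
    rw [wb1_norm]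
    rfl
  simp only [e]
  have h0 : (0 : ℝ) = ∑' _m : ℤ × ℤ, (0 : ℝ) := by simp
  rw [h0]
  refine tendsto_tsum_of_dominated_convergence (bound := fun m => 2 * K * (1 / wt L m ^ 4))
    ((summable_wt L).mul_left _) (fun m => ?_) (Filter.Eventually.of_forall fun n m => ?_)
  · exact tendsto_iff_norm_sub_tendsto_zero.1 (hl m)
  · have hw : 0 < wt L m ^ 4 := pow_pos (lt_of_lt_of_le one_pos (one_le_wt L m)) 4
    rw [Real.norm_of_nonneg (norm_nonneg _)]
    have h1 : ‖g n m - c m‖ ≤ ‖g n m‖ + ‖c m‖ := norm_sub_le _ _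
    have h2 : ‖g n m‖ ≤ K / wt L m ^ 4 := by
      rw [le_div_iff₀ hw, mul_comm]
      exact hK n m
    have h3 : ‖c m‖ ≤ K / wt L m ^ 4 := by
      rw [le_div_iff₀ hw, mul_comm]
      exact hc m
    have h4 : 2 * K * (1 / wt L m ^ 4) = K / wt L m ^ 4 + K / wt L m ^ 4 := by ring
    rw [h4]
    linarith

private theorem fix2_le_sqrt {w a b K : ℝ} (hw : 0 ≤ w) (ha : 0 ≤ a) (s : ℕ)
    (h : w ^ (2 * s) * (a ^ 2 + b ^ 2) ≤ K) : w ^ s * a ≤ √K := by
  apply Real.le_sqrt_of_sq_le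
  refine le_trans ?_ h
  have : (w ^ s * a) ^ 2 = w ^ (2 * s) * a ^ 2 := by ring
  rw [this]
  have : 0 ≤ w ^ (2 * s) := by positivity
  nlinarith [sq_nonneg b]

theorem exists_fixed {L : Lat} {b11 b12 b22 : V} {q : ℝ} (hb : BData L b11 b12 b22 q) {β : V × V}
    (hβ : RapidP L β) : ∃ F : V × V, RapidP L F ∧ F = Bop b11 b12 b22 (Pop L F) + β := by
  set f : ℕ → V × V := fun n => Nat.rec 0 (fun _ G => Bop b11 b12 b22 (Pop L G) + β) n with hf
  have h0 : f 0 = 0 := rfl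
  have hs : ∀ n, f (n + 1) = Bop b11 b12 b22 (Pop L (f n)) + β := fun n => rfl
  clear_value f
  obtain ⟨hR, hB⟩ := iter_bound hb hβ f h0 hs
  have hD := iter_diff hb hβ f h0 hs
  choose K hK0 hK using hB
  have hq0 := hb.q0
  have hq1 := hb.q1
  -- bounds
  have hb1 : ∀ s n m, wt L m ^ s * ‖(f n).1 m‖ ≤ √(K s) := by
    intro s n m
    refine fix2_le_sqrt (b := ‖(f n).2 m‖) (le_trans zero_le_one (one_le_wt L m)) (norm_nonneg _) s ?_
    exact (fix2_term (summable_sq (hR n).1 s) (summable_sq (hR n).2 s) m).trans (hK s n)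
  have hb2 : ∀ s n m, wt L m ^ s * ‖(f n).2 m‖ ≤ √(K s) := by
    intro s n m
    refine fix2_le_sqrt (b := ‖(f n).1 m‖) (le_trans zero_le_one (one_le_wt L m)) (norm_nonneg _) s ?_
    rw [add_comm]
    exact (fix2_term (summable_sq (hR n).1 s) (summable_sq (hR n).2 s) m).trans (hK s n)
  have hd : ∀ n m, wt L m ^ (2 * 0) * (‖(f (n + 1) - f n).1 m‖ ^ 2 + ‖(f (n + 1) - f n).2 m‖ ^ 2)
      ≤ q ^ (2 * n) * N2 L 0 β := by
    intro n m
    refine (fix2_term ?_ ?_ m).trans (hD n)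
    · simpa using summable_sq0 (f (n + 1) - f n).1
    · simpa using summable_sq0 (f (n + 1) - f n).2
  have hsq : ∀ n, √(q ^ (2 * n) * N2 L 0 β) = √(N2 L 0 β) * q ^ n := by
    intro n
    have e : q ^ (2 * n) * N2 L 0 β = N2 L 0 β * (q ^ n) ^ 2 := by ring
    rw [e, Real.sqrt_mul (N2_nonneg L 0 β), Real.sqrt_sq (pow_nonneg hq0 n)]
  have hl1 : ∀ m, ∃ l, Filter.Tendsto (fun n => (f n).1 m) Filter.atTop (nhds l) := by
    intro m
    refine fix2_lim (C := √(N2 L 0 β)) hq0 hq1 (fun n => ?_)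
    have h := fix2_le_sqrt (le_trans zero_le_one (one_le_wt L m)) (norm_nonneg _) 0 (hd n m)
    rw [hsq, pow_zero, one_mul] at h
    exact h
  have hl2 : ∀ m, ∃ l, Filter.Tendsto (fun n => (f n).2 m) Filter.atTop (nhds l) := by
    intro m
    refine fix2_lim (C := √(N2 L 0 β)) hq0 hq1 (fun n => ?_)
    have h' := hd n m
    rw [add_comm] at h'
    have h := fix2_le_sqrt (le_trans zero_le_one (one_le_wt L m)) (norm_nonneg _) 0 h'
    rw [hsq, pow_zero, one_mul] at h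
    exact h
  choose c1 hc1 using hl1
  choose c2 hc2 using hl2
  have hB1 : ∀ s m, wt L m ^ s * ‖c1 m‖ ≤ √(K s) := by
    intro s m
    refine le_of_tendsto' (((hc1 m).norm).const_mul (wt L m ^ s)) (fun n => hb1 s n m)
  have hB2 : ∀ s m, wt L m ^ s * ‖c2 m‖ ≤ √(K s) := by
    intro s m
    refine le_of_tendsto' (((hc2 m).norm).const_mul (wt L m ^ s)) (fun n => hb2 s n m)
  obtain ⟨F1, hF1, e1⟩ := exists_of_bound L c1 _ hB1
  obtain ⟨F2, hF2, e2⟩ := exists_of_bound L c2 _ hB2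
  have t1 : Filter.Tendsto (fun n => (f n).1) Filter.atTop (nhds F1) := by
    refine fix2_conv (L := L) (K := √(K 4)) (fun m => ?_) (fun n m => hb1 4 n m) (fun m => ?_)
    · rw [e1]; exact hc1 m
    · rw [e1]; exact hB1 4 m
  have t2 : Filter.Tendsto (fun n => (f n).2) Filter.atTop (nhds F2) := by
    refine fix2_conv (L := L) (K := √(K 4)) (fun m => ?_) (fun n m => hb2 4 n m) (fun m => ?_)
    · rw [e2]; exact hc2 m
    · rw [e2]; exact hB2 4 m
  have t : Filter.Tendsto f Filter.atTop (nhds (F1, F2)) := t1.prodMk_nhds t2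
  have hcont : Continuous fun G : V × V => Bop b11 b12 b22 (Pop L G) + β := by
    unfold Bop Pop
    fun_prop
  refine ⟨(F1, F2), ⟨hF1, hF2⟩, ?_⟩
  have ta : Filter.Tendsto (fun n => f (n + 1)) Filter.atTop (nhds (F1, F2)) :=
    t.comp (Filter.tendsto_add_atTop_nat 1)
  have tb : Filter.Tendsto (fun n => f (n + 1)) Filter.atTop
      (nhds (Bop b11 b12 b22 (Pop L (F1, F2)) + β)) := by
    simp only [hs]
    exact (hcont.tendsto _).comp t
  exact tendsto_nhds_unique ta tb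

end P205T.U
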