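import Vale.Agent.P205U.Rap

/-! Module POS: `ℓ²` contraction.
`pos_zero`: `∫₀¹∫₀¹ ev (s ω₁ + t ω₂) c ds dt = c 0` (uniformly convergent series, the character is
`exp(2πi(n.1 s + n.2 t))` because `k(n)·ω₁ = 2π n.1`, `k(n)·ω₂ = 2π n.2`).
`sum_sq`: `(conv a (J a)) 0 = ∑ a m conj (a m)`.
`l2_contract`: apply `pos_zero` to `q² Σ conv F_i (J F_i) - Σ conv (BF)_i (J (BF)_i)`; at every point `z` use `BData.bd`
for the real and for the imaginary parts of `f = (ev z F.1, ev z F.2)`. -/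

open Complex ComplexConjugate MeasureTheory
open scoped ContDiff

namespace P205T.U

theorem POS1_int (k : ℤ) : ∫ x in Set.Ioc (0:ℝ) 1, Complex.exp (2 * Real.pi * Complex.I * (k * x)) =
    if k = 0 then 1 else 0 := by
  rw [← intervalIntegral.integral_of_le zero_le_one]
  by_cases hk : k = 0
  · subst hk
    simp
  · rw [if_neg hk]
    have hc : (2 * Real.pi * Complex.I * k : ℂ) ≠ 0 := by
      have h1 : (Real.pi : ℂ) ≠ 0 := Complex.ofReal_ne_zero.2 Real.pi_ne_zero
      have h2 : (k : ℂ) ≠ 0 := Int.cast_ne_zero.2 hk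
      exact mul_ne_zero (mul_ne_zero (mul_ne_zero two_ne_zero h1) Complex.I_ne_zero) h2
    have h1 : (fun x : ℝ => Complex.exp (2 * Real.pi * Complex.I * (k * x))) =
        fun x : ℝ => Complex.exp ((2 * Real.pi * Complex.I * k) * x) := by
      funext x
      congr 1
      ring
    rw [h1, integral_exp_mul_complex hc]
    have h2 : Complex.exp ((2 * Real.pi * Complex.I * k) * (1 : ℝ)) = 1 := by
      have : (2 * Real.pi * Complex.I * k) * ((1 : ℝ) : ℂ) = (k : ℂ) * (2 * Real.pi * Complex.I) := by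
        push_cast
        ring
      rw [this]
      exact Complex.exp_int_mul_two_pi_mul_I k
    rw [h2]
    simp

theorem POS1_int2 (L : Lat) (a : ℂ) (n : ℤ × ℤ) :
    ∫ p in Set.Ioc (0:ℝ) 1 ×ˢ Set.Ioc (0:ℝ) 1, a * ch L n (foPt L p) = if n = 0 then a else 0 := by
  rw [integral_const_mul]
  have h1 : ∀ p : ℝ × ℝ, ch L n (foPt L p) = Complex.exp (2 * Real.pi * Complex.I * (n.1 * p.1)) *
      Complex.exp (2 * Real.pi * Complex.I * (n.2 * p.2)) := by
    intro p
    have h2 : p = (p.1, p.2) := rfl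
    rw [h2, fo_ch, ← Complex.exp_add]
    congr 1
    ring
  simp only [h1]
  rw [Measure.volume_eq_prod, setIntegral_prod_mul
    (f := fun x : ℝ => Complex.exp (2 * Real.pi * Complex.I * (n.1 * x)))
    (g := fun x : ℝ => Complex.exp (2 * Real.pi * Complex.I * (n.2 * x))), POS1_int, POS1_int]
  by_cases h1 : n.1 = 0
  · by_cases h2 : n.2 = 0
    · have : n = 0 := Prod.ext h1 h2
      rw [if_pos h1, if_pos h2, if_pos this, mul_one, mul_one]
    · have : n ≠ 0 := fun h => h2 (by rw [h]; rfl)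
      rw [if_neg h2, if_neg this, mul_zero, mul_zero]
  · have : n ≠ 0 := fun h => h1 (by rw [h]; rfl)
    rw [if_neg h1, if_neg this, zero_mul, mul_zero]

theorem POS1_vol : (volume : Measure (ℝ × ℝ)).restrict (Set.Ioc (0:ℝ) 1 ×ˢ Set.Ioc (0:ℝ) 1) Set.univ = 1 := by
  rw [Measure.restrict_apply_univ, Measure.volume_eq_prod, Measure.prod_prod]
  simp

theorem POS1_cont (L : Lat) (n : ℤ × ℤ) : Continuous fun p => ch L n (foPt L p) :=
  (WApi1a_ch_continuous L n).comp (foPt_cont L)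

theorem POS1_eq (L : Lat) (c : V) :
    ∫ p in Set.Ioc (0:ℝ) 1 ×ˢ Set.Ioc (0:ℝ) 1, ev L (foPt L p) c = c 0 := by
  haveI : IsProbabilityMeasure ((volume : Measure (ℝ × ℝ)).restrict
      (Set.Ioc (0:ℝ) 1 ×ˢ Set.Ioc (0:ℝ) 1)) := ⟨POS1_vol⟩
  have hint : ∀ n, Integrable (fun p : ℝ × ℝ => c n * ch L n (foPt L p))
      ((volume : Measure (ℝ × ℝ)).restrict (Set.Ioc (0:ℝ) 1 ×ˢ Set.Ioc (0:ℝ) 1)) := by
    intro n
    have h1 : Continuous (fun p : ℝ × ℝ => c n * ch L n (foPt L p)) :=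
      continuous_const.mul (POS1_cont L n)
    have h2 : IsCompact (Set.Icc (0:ℝ) 1 ×ˢ Set.Icc (0:ℝ) 1) := isCompact_Icc.prod isCompact_Icc
    exact (h1.continuousOn.integrableOn_compact h2).mono_set
      (Set.prod_mono Set.Ioc_subset_Icc_self Set.Ioc_subset_Icc_self)
  have hn : ∀ n, ∫ p in Set.Ioc (0:ℝ) 1 ×ˢ Set.Ioc (0:ℝ) 1, ‖c n * ch L n (foPt L p)‖ = ‖c n‖ := by
    intro n
    simp only [norm_mul, norm_ch, mul_one]
    rw [integral_const]
    simp [Measure.real, POS1_vol]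
  have hsum : Summable fun n => ∫ p in Set.Ioc (0:ℝ) 1 ×ˢ Set.Ioc (0:ℝ) 1,
      ‖c n * ch L n (foPt L p)‖ := by
    simp only [hn]
    exact wb1_summable c
  have key := integral_tsum_of_summable_integral_norm hint hsum
  simp only [ev_apply]
  rw [← key]
  simp only [POS1_int2]
  rw [tsum_ite_eq]

theorem POS1_cont1 (L : Lat) (c : V) : Continuous fun z : ℂ => ev L z c := by
  have h0 : Continuous fun z : ℂ => ((c, z) : V × ℂ) := Continuous.prodMk continuous_const continuous_id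
  have h1 := Continuous.comp (ev_continuous L) h0
  exact h1

theorem POS1_cont2 (L : Lat) (c : V) : Continuous fun p : ℝ × ℝ => ev L (foPt L p) c := by
  have h1 := Continuous.comp (POS1_cont1 L c) (foPt_cont L)
  exact h1

theorem pos_zero (L : Lat) (c : V) (h : ∀ z, 0 ≤ (ev L z c).re) : 0 ≤ (c 0).re := by
  have hint : Integrable (fun p : ℝ × ℝ => ev L (foPt L p) c)
      ((volume : Measure (ℝ × ℝ)).restrict (Set.Ioc (0:ℝ) 1 ×ˢ Set.Ioc (0:ℝ) 1)) := by
    have h1 : Continuous (fun p : ℝ × ℝ => ev L (foPt L p) c) := POS1_cont2 L c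
    have h2 : IsCompact (Set.Icc (0:ℝ) 1 ×ˢ Set.Icc (0:ℝ) 1) := isCompact_Icc.prod isCompact_Icc
    exact (h1.continuousOn.integrableOn_compact h2).mono_set
      (Set.prod_mono Set.Ioc_subset_Icc_self Set.Ioc_subset_Icc_self)
  have h1 := Complex.reCLM.integral_comp_comm hint
  rw [POS1_eq] at h1
  change _ = (c 0).re at h1
  rw [← h1]
  exact integral_nonneg fun p => h _

theorem sum_sq (a : V) : HasSum (fun n => ‖a n‖ ^ 2) ((conv a (J a)) 0).re := by
  have h1 : HasSum (fun m => a m * J a (0 - m)) ((conv a (J a)) 0) := by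
    rw [conv_apply]
    exact (wb2_fiber' a (J a) 0).hasSum
  have h2 := Complex.reCLM.hasSum h1
  have h3 : (fun m => Complex.reCLM (a m * J a (0 - m))) = fun n => ‖a n‖ ^ 2 := by
    funext m
    rw [Complex.reCLM_apply]
    rw [J_apply, zero_sub, neg_neg, Complex.mul_conj, Complex.ofReal_re, Complex.normSq_eq_norm_sq]
  rw [h3] at h2
  exact h2

private theorem pos3_N2 (L : Lat) (F : V × V) :
    N2 L 0 F = ((conv F.1 (J F.1)) 0).re + ((conv F.2 (J F.2)) 0).re := by
  have h := (sum_sq F.1).add (sum_sq F.2)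
  rw [← h.tsum_eq]
  unfold N2
  refine tsum_congr fun n => ?_
  rw [mul_zero, pow_zero, one_mul]

private theorem pos3_pt {b11 b12 b22 f1 f2 : ℂ} {q : ℝ} (h11 : b11.im = 0) (h12 : b12.im = 0)
    (h22 : b22.im = 0)
    (hbd : ∀ x y : ℝ, (b11.re * x + b12.re * y) ^ 2 + (b12.re * x + b22.re * y) ^ 2 ≤
      q ^ 2 * (x ^ 2 + y ^ 2)) :
    0 ≤ ((q ^ 2 : ℝ) * (f1 * conj f1 + f2 * conj f2) - ((b11 * f1 + b12 * f2) *
      conj (b11 * f1 + b12 * f2) + (b12 * f1 + b22 * f2) * conj (b12 * f1 + b22 * f2)) : ℂ).re := by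
  have h1 := hbd f1.re f2.re
  have h2 := hbd f1.im f2.im
  rw [Complex.mul_conj, Complex.mul_conj, Complex.mul_conj, Complex.mul_conj]
  simp only [Complex.sub_re, Complex.add_re, Complex.ofReal_re, Complex.mul_re, Complex.ofReal_im,
    zero_mul, sub_zero, Complex.normSq_apply, Complex.add_im, Complex.mul_im, h11, h12, h22,
    Complex.mul_im, mul_zero, add_zero, zero_add]
  nlinarith

theorem l2_contract (L : Lat) {b11 b12 b22 : V} {q : ℝ} (hb : BData L b11 b12 b22 q) (F : V × V) :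
    N2 L 0 (Bop b11 b12 b22 F) ≤ q ^ 2 * N2 L 0 F := by
  rw [pos3_N2, pos3_N2]
  set G1 : V := (Bop b11 b12 b22 F).1 with hG1
  set G2 : V := (Bop b11 b12 b22 F).2 with hG2
  have h := pos_zero L ((q ^ 2) • (conv F.1 (J F.1) + conv F.2 (J F.2)) -
    (conv G1 (J G1) + conv G2 (J G2))) (fun z => by
      have e1 : ev L z G1 = ev L z b11 * ev L z F.1 + ev L z b12 * ev L z F.2 := by
        rw [hG1]
        show ev L z (conv b11 F.1 + conv b12 F.2) = _
        rw [map_add, ev_conv, ev_conv]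
      have e2 : ev L z G2 = ev L z b12 * ev L z F.1 + ev L z b22 * ev L z F.2 := by
        rw [hG2]
        show ev L z (conv b12 F.1 + conv b22 F.2) = _
        rw [map_add, ev_conv, ev_conv]
      have e3 : ev L z ((q ^ 2) • (conv F.1 (J F.1) + conv F.2 (J F.2)) -
          (conv G1 (J G1) + conv G2 (J G2))) = (q ^ 2 : ℝ) * (ev L z F.1 * conj (ev L z F.1) +
          ev L z F.2 * conj (ev L z F.2)) - (ev L z G1 * conj (ev L z G1) +
          ev L z G2 * conj (ev L z G2)) := by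
        rw [map_sub, map_smul, map_add, map_add, ev_conv, ev_conv, ev_conv, ev_conv, ev_J, ev_J,
          ev_J, ev_J, Complex.real_smul]
      rw [e3, e1, e2]
      exact pos3_pt (hb.im11 z) (hb.im12 z) (hb.im22 z) (hb.bd z))
  have e4 : (((q ^ 2) • (conv F.1 (J F.1) + conv F.2 (J F.2)) -
      (conv G1 (J G1) + conv G2 (J G2)) : V) 0).re =
      q ^ 2 * (((conv F.1 (J F.1)) 0).re + ((conv F.2 (J F.2)) 0).re) -
      (((conv G1 (J G1)) 0).re + ((conv G2 (J G2)) 0).re) := by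
    rw [lp.coeFn_sub, Pi.sub_apply, lp.coeFn_smul, Pi.smul_apply, lp.coeFn_add, Pi.add_apply,
      lp.coeFn_add, Pi.add_apply, Complex.sub_re, Complex.add_re, Complex.smul_re,
      Complex.add_re, smul_eq_mul]
  rw [e4] at h
  linarith

end P205T.U
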