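import Vale.Agent.P205U.Defs

/-! Module RAP: elementary facts on rapidly decreasing sequences.
`wt (n+m) ≤ wt n + wt m` (kx, ky are additive), `wt ≥ 1`, `wt (-n) = wt n`.
`rapid_conv`: `wt n ^ N ≤ wt m ^ N * wt (n-m) ^ N` and the product of two summable families.
`summable_wt`: `(1 + |n.1| + |n.2|) ≤ C * wt L n` (frequency lower bound as in module WM:
`2π n.1 = kx ω₁.re + ky ω₁.im`, `2π n.2 = kx ω₂.re + ky ω₂.im`), and `∑ (1+|n.1|+|n.2|)^(-4) < ∞`. -/

open Complex ComplexConjugate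
open scoped ContDiff

namespace P205T.U

theorem one_le_wt (L : Lat) (n : ℤ × ℤ) : 1 ≤ wt L n := by
  unfold wt
  have h1 := abs_nonneg (kx L n)
  have h2 := abs_nonneg (ky L n)
  linarith

theorem RAP1_kx_add (L : Lat) (n m : ℤ × ℤ) : kx L (n + m) = kx L n + kx L m := by
  unfold kx
  simp only [Prod.fst_add, Prod.snd_add]
  push_cast
  ring

theorem RAP1_ky_add (L : Lat) (n m : ℤ × ℤ) : ky L (n + m) = ky L n + ky L m := by
  unfold ky
  simp only [Prod.fst_add, Prod.snd_add]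
  push_cast
  ring

theorem RAP1_kx_neg (L : Lat) (n : ℤ × ℤ) : kx L (-n) = -kx L n := by
  unfold kx
  simp only [Prod.fst_neg, Prod.snd_neg]
  push_cast
  ring

theorem RAP1_ky_neg (L : Lat) (n : ℤ × ℤ) : ky L (-n) = -ky L n := by
  unfold ky
  simp only [Prod.fst_neg, Prod.snd_neg]
  push_cast
  ring

theorem wt_neg (L : Lat) (n : ℤ × ℤ) : wt L (-n) = wt L n := by
  unfold wt
  rw [RAP1_kx_neg, RAP1_ky_neg, abs_neg, abs_neg]

theorem wt_add (L : Lat) (n m : ℤ × ℤ) : wt L (n + m) ≤ wt L n + wt L m := by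
  unfold wt
  rw [RAP1_kx_add, RAP1_ky_add]
  have h1 := abs_add_le (kx L n) (kx L m)
  have h2 := abs_add_le (ky L n) (ky L m)
  linarith

theorem wt_mul (L : Lat) (n m : ℤ × ℤ) : wt L (n + m) ≤ wt L n * wt L m := by
  unfold wt
  rw [RAP1_kx_add, RAP1_ky_add]
  have h1 := abs_add_le (kx L n) (kx L m)
  have h2 := abs_add_le (ky L n) (ky L m)
  have h3 := abs_nonneg (kx L n)
  have h4 := abs_nonneg (kx L m)
  have h5 := abs_nonneg (ky L n)
  have h6 := abs_nonneg (ky L m)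
  nlinarith [mul_nonneg h3 h4, mul_nonneg h3 h6, mul_nonneg h5 h4, mul_nonneg h5 h6]

theorem RAP1_nonneg (L : Lat) (a : V) (N : ℕ) (n : ℤ × ℤ) :
    0 ≤ (1 + |kx L n| + |ky L n|) ^ N * ‖a n‖ := by
  positivity

theorem rapid_add {L : Lat} {a b : V} (ha : Rapid L a) (hb : Rapid L b) : Rapid L (a + b) := by
  intro N
  refine Summable.of_nonneg_of_le (fun n => RAP1_nonneg L (a + b) N n) (fun n => ?_)
    ((ha N).add (hb N))
  have h1 : (a + b) n = a n + b n := rfl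
  rw [h1, ← mul_add]
  exact mul_le_mul_of_nonneg_left (norm_add_le _ _) (by positivity)

theorem rapid_smul {L : Lat} {a : V} (ha : Rapid L a) (t : ℝ) : Rapid L (t • a) := by
  intro N
  refine ((ha N).mul_left |t|).congr fun n => ?_
  have h1 : (t • a) n = t • a n := rfl
  rw [h1, norm_smul, Real.norm_eq_abs]
  ring

theorem rapid_mult {L : Lat} {a : V} (ha : Rapid L a) {m : ℤ × ℤ → ℂ} (hm : Bdd m) : Rapid L (mult m a) := by
  obtain ⟨K, hK⟩ := id hm
  intro N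
  refine Summable.of_nonneg_of_le (fun n => RAP1_nonneg L (mult m a) N n) (fun n => ?_)
    ((ha N).mul_left K)
  rw [mult_apply hm, norm_mul]
  have h1 : ‖m n‖ * ‖a n‖ ≤ K * ‖a n‖ := mul_le_mul_of_nonneg_right (hK n) (norm_nonneg _)
  have h2 : 0 ≤ (1 + |kx L n| + |ky L n|) ^ N := by positivity
  have h3 := mul_le_mul_of_nonneg_left h1 h2
  calc (1 + |kx L n| + |ky L n|) ^ N * (‖m n‖ * ‖a n‖)
      ≤ (1 + |kx L n| + |ky L n|) ^ N * (K * ‖a n‖) := h3
    _ = K * ((1 + |kx L n| + |ky L n|) ^ N * ‖a n‖) := by ring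

theorem rap2_wt_nonneg (L : Lat) (n : ℤ × ℤ) : 0 ≤ wt L n := by
  unfold wt
  positivity

theorem rap2_norm (L : Lat) (a : V) (s : ℕ) (n : ℤ × ℤ) :
    ‖((wt L n ^ s : ℝ) : ℂ) * a n‖ = wt L n ^ s * ‖a n‖ := by
  rw [norm_mul, Complex.norm_real, Real.norm_eq_abs,
    abs_of_nonneg (pow_nonneg (rap2_wt_nonneg L n) s)]

theorem rap2_lam {L : Lat} {a : V} (ha : Rapid L a) (s : ℕ) :
    ∃ a' : V, Rapid L a' ∧ ∀ n, a' n = ((wt L n ^ s : ℝ) : ℂ) * a n := by
  refine ⟨⟨fun n => ((wt L n ^ s : ℝ) : ℂ) * a n, wb2_mem ?_⟩, fun N => ?_, fun n => rfl⟩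
  · simp only [rap2_norm]
    exact ha s
  · have h := ha (N + s)
    refine h.congr fun n => ?_
    show wt L n ^ (N + s) * ‖a n‖ = wt L n ^ N * ‖((wt L n ^ s : ℝ) : ℂ) * a n‖
    rw [rap2_norm, pow_add, mul_assoc]

theorem rapid_conv {L : Lat} {a b : V} (ha : Rapid L a) (hb : Rapid L b) : Rapid L (conv a b) := by
  intro N
  obtain ⟨a', -, ha'⟩ := rap2_lam ha N
  obtain ⟨b', -, hb'⟩ := rap2_lam hb N
  refine Summable.of_nonneg_of_le (fun n => ?_) (fun n => ?_) (wb2_outer a' b')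
  · exact mul_nonneg (pow_nonneg (rap2_wt_nonneg L n) N) (norm_nonneg _)
  · show wt L n ^ N * ‖conv a b n‖ ≤ ∑' m, ‖a' m‖ * ‖b' (n - m)‖
    rw [conv_apply]
    calc wt L n ^ N * ‖∑' m, a m * b (n - m)‖
        ≤ wt L n ^ N * ∑' m, ‖a m‖ * ‖b (n - m)‖ :=
          mul_le_mul_of_nonneg_left (wb2_le a b n) (pow_nonneg (rap2_wt_nonneg L n) N)
      _ = ∑' m, wt L n ^ N * (‖a m‖ * ‖b (n - m)‖) := by rw [tsum_mul_left]
      _ ≤ ∑' m, ‖a' m‖ * ‖b' (n - m)‖ := by
          refine ((wb2_fiber a b n).mul_left _).tsum_le_tsum (fun m => ?_) (wb2_fiber a' b' n)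
          rw [ha', hb', rap2_norm, rap2_norm]
          have h1 : wt L n ≤ wt L m * wt L (n - m) := by
            have h := wt_mul L m (n - m)
            rwa [add_sub_cancel] at h
          have h2 : wt L n ^ N ≤ wt L m ^ N * wt L (n - m) ^ N := by
            rw [← mul_pow]
            exact pow_le_pow_left₀ (rap2_wt_nonneg L n) h1 N
          calc wt L n ^ N * (‖a m‖ * ‖b (n - m)‖)
              ≤ (wt L m ^ N * wt L (n - m) ^ N) * (‖a m‖ * ‖b (n - m)‖) :=
                mul_le_mul_of_nonneg_right h2 (by positivity)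
            _ = wt L m ^ N * ‖a m‖ * (wt L (n - m) ^ N * ‖b (n - m)‖) := by ring

theorem rapid_J {L : Lat} {a : V} (ha : Rapid L a) : Rapid L (J a) := by
  intro N
  refine ((Equiv.neg (ℤ × ℤ)).summable_iff.mpr (ha N)).congr fun n => ?_
  have h1 : (1 + |kx L (-n)| + |ky L (-n)|) = 1 + |kx L n| + |ky L n| := wt_neg L n
  simp only [Function.comp_apply, Equiv.neg_apply]
  rw [h1, J_apply, RCLike.norm_conj]

/-- the element `wt^s a` of `V` -/
theorem exists_lam {L : Lat} {a : V} (ha : Rapid L a) (s : ℕ) :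
    ∃ a' : V, Rapid L a' ∧ ∀ n, a' n = ((wt L n ^ s : ℝ) : ℂ) * a n :=
  rap2_lam ha s

theorem rap2_sq0 (a : V) : Summable fun n => ‖a n‖ ^ 2 := by
  refine Summable.of_nonneg_of_le (fun n => by positivity) (fun n => ?_)
    ((wb2_summable a).mul_left ‖a‖)
  rw [sq]
  exact mul_le_mul_of_nonneg_right (lp.norm_apply_le_norm one_ne_zero a n) (norm_nonneg _)

theorem summable_sq {L : Lat} {a : V} (ha : Rapid L a) (s : ℕ) :
    Summable fun n => wt L n ^ (2 * s) * ‖a n‖ ^ 2 := by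
  obtain ⟨a', -, ha'⟩ := rap2_lam ha s
  refine (rap2_sq0 a').congr fun n => ?_
  rw [ha', rap2_norm, mul_pow, ← pow_mul, mul_comm s 2]

theorem summable_sq0 (a : V) : Summable fun n => ‖a n‖ ^ 2 := rap2_sq0 a

private theorem rap3_int : Summable fun n : ℤ => 1 / (1 + |(n : ℝ)|) ^ 2 := by
  have h1 : Summable fun n : ℕ => 1 / (1 + |((n : ℤ) : ℝ)|) ^ 2 := by
    have h2 : Summable fun n : ℕ => 1 / ((n + 1 : ℕ) : ℝ) ^ 2 :=
      (summable_nat_add_iff 1).2 (Real.summable_one_div_nat_pow.2 (by norm_num : 1 < 2))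
    refine h2.congr fun n => ?_
    have : |((n : ℤ) : ℝ)| = n := by simp
    rw [this]
    push_cast
    ring
  refine Summable.of_nat_of_neg h1 ?_
  refine h1.congr fun n => ?_
  push_cast
  rw [abs_neg]

private theorem rap3_low (L : Lat) (n : ℤ × ℤ) :
    (1 + |(n.1 : ℝ)|) ≤ (1 + |L.ω₁.re| + |L.ω₁.im| + |L.ω₂.re| + |L.ω₂.im|) * wt L n ∧
    (1 + |(n.2 : ℝ)|) ≤ (1 + |L.ω₁.re| + |L.ω₁.im| + |L.ω₂.re| + |L.ω₂.im|) * wt L n := by
  set S := 1 + |L.ω₁.re| + |L.ω₁.im| + |L.ω₂.re| + |L.ω₂.im| with hS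
  have a1 := abs_nonneg L.ω₁.re
  have a2 := abs_nonneg L.ω₁.im
  have a3 := abs_nonneg L.ω₂.re
  have a4 := abs_nonneg L.ω₂.im
  have hk1 := abs_nonneg (kx L n)
  have hk2 := abs_nonneg (ky L n)
  have hpi : 1 ≤ 2 * Real.pi := by linarith [Real.pi_gt_three]
  have key : ∀ (a b m : ℝ), |a| ≤ S → |b| ≤ S → kx L n * a + ky L n * b = 2 * Real.pi * m →
      1 + |m| ≤ S * wt L n := by
    intro a b m ha hb h
    have h1 : |m| ≤ |2 * Real.pi * m| := by
      rw [abs_mul, abs_of_pos (by positivity : 0 < 2 * Real.pi)]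
      nlinarith [abs_nonneg m]
    have h2 : |2 * Real.pi * m| ≤ |kx L n| * S + |ky L n| * S := by
      rw [← h]
      calc |kx L n * a + ky L n * b| ≤ |kx L n * a| + |ky L n * b| := abs_add_le _ _
        _ = |kx L n| * |a| + |ky L n| * |b| := by rw [abs_mul, abs_mul]
        _ ≤ _ := add_le_add (mul_le_mul_of_nonneg_left ha hk1) (mul_le_mul_of_nonneg_left hb hk2)
    unfold wt
    have hS1 : 1 ≤ S := by linarith
    calc 1 + |m| ≤ S + (|kx L n| * S + |ky L n| * S) := by linarith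
      _ = S * (1 + |kx L n| + |ky L n|) := by ring
  exact ⟨key _ _ _ (by linarith) (by linarith) (WM_k1 L n),
    key _ _ _ (by linarith) (by linarith) (WM_k2 L n)⟩

private theorem rap3_wt_pos (L : Lat) (n : ℤ × ℤ) : 0 < wt L n := by
  unfold wt
  have hk1 := abs_nonneg (kx L n)
  have hk2 := abs_nonneg (ky L n)
  linarith

theorem summable_wt (L : Lat) : Summable fun n : ℤ × ℤ => 1 / wt L n ^ 4 := by
  set S := 1 + |L.ω₁.re| + |L.ω₁.im| + |L.ω₂.re| + |L.ω₂.im| with hS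
  have hS0 : 0 < S := by
    have a1 := abs_nonneg L.ω₁.re
    have a2 := abs_nonneg L.ω₁.im
    have a3 := abs_nonneg L.ω₂.re
    have a4 := abs_nonneg L.ω₂.im
    linarith
  have h1 : Summable fun n : ℤ × ℤ => (1 / (1 + |(n.1 : ℝ)|) ^ 2) * (1 / (1 + |(n.2 : ℝ)|) ^ 2) :=
    rap3_int.mul_of_nonneg rap3_int (fun n => by positivity) (fun n => by positivity)
  refine Summable.of_nonneg_of_le (fun n => ?_) (fun n => ?_) (h1.mul_left (S ^ 4))
  · have := rap3_wt_pos L n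
    positivity
  · obtain ⟨l1, l2⟩ := rap3_low L n
    have hw := rap3_wt_pos L n
    have p1 : 0 < 1 + |(n.1 : ℝ)| := by positivity
    have p2 : 0 < 1 + |(n.2 : ℝ)| := by positivity
    have h3 : (1 + |(n.1 : ℝ)|) ^ 2 * (1 + |(n.2 : ℝ)|) ^ 2 ≤ S ^ 4 * wt L n ^ 4 := by
      calc (1 + |(n.1 : ℝ)|) ^ 2 * (1 + |(n.2 : ℝ)|) ^ 2
          ≤ (S * wt L n) ^ 2 * (S * wt L n) ^ 2 :=
            mul_le_mul (pow_le_pow_left₀ p1.le l1 2) (pow_le_pow_left₀ p2.le l2 2)
              (by positivity) (by positivity)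
        _ = _ := by ring
    rw [one_div_mul_one_div, mul_one_div, div_le_div_iff₀ (by positivity) (by positivity), one_mul]
    exact h3

/-- a pointwise rapidly decreasing family is an element of `V` -/
theorem exists_of_bound (L : Lat) (c : ℤ × ℤ → ℂ) (K : ℕ → ℝ) (h : ∀ s n, wt L n ^ s * ‖c n‖ ≤ K s) :
    ∃ a : V, Rapid L a ∧ ∀ n, a n = c n := by
  have key : ∀ N : ℕ, Summable fun n : ℤ × ℤ => wt L n ^ N * ‖c n‖ := by
    intro N
    refine Summable.of_nonneg_of_le (fun n => ?_) (fun n => ?_) ((summable_wt L).mul_left (K (N + 4)))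
    · have := rap3_wt_pos L n
      positivity
    · have hw := rap3_wt_pos L n
      have h1 := h (N + 4) n
      rw [mul_one_div, le_div_iff₀ (by positivity)]
      calc wt L n ^ N * ‖c n‖ * wt L n ^ 4 = wt L n ^ (N + 4) * ‖c n‖ := by rw [pow_add]; ring
        _ ≤ K (N + 4) := h1
  have hmem : Memℓp c 1 := by
    rw [memℓp_gen_iff (by simp)]
    have := key 0
    simpa using this
  refine ⟨⟨c, hmem⟩, fun N => ?_, fun n => rfl⟩
  exact key N

end P205T.U
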