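import Vale.Agent.P205T.Defs

/-! Module SEC: uniform local sections of an equivariant local diffeomorphism.  At every `z₀` the inverse function
theorem gives an `OpenPartialHomeomorph`; its target contains `ball (Φ z₀) (2 r₀)`; for `z` near `z₀` the section
works on `ball (Φ z) r₀`.  Compactness of `{s ω₁ + t ω₂ : s, t ∈ [0,1]}` gives a uniform `r`; translate
by the lattice: `σ y ↦ σ (y - m c₁ - n c₂) + m ω₁ + n ω₂`. -/

open Complex ComplexConjugate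
open scoped ContDiff

namespace P205T.U

/-- there is a section through `z` on the ball of radius `r` -/
private def secP (Φ : ℂ → ℂ) (r : ℝ) (z : ℂ) : Prop :=
  ∃ σ : ℂ → ℂ, ContinuousOn σ (Metric.ball (Φ z) r) ∧ σ (Φ z) = z ∧
    ∀ y ∈ Metric.ball (Φ z) r, Φ (σ y) = y

private theorem secP_mono {Φ : ℂ → ℂ} {r r' : ℝ} {z : ℂ} (h : secP Φ r z) (hr : r' ≤ r) :
    secP Φ r' z := by
  obtain ⟨σ, h1, h2, h3⟩ := h
  exact ⟨σ, h1.mono (Metric.ball_subset_ball hr), h2,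
    fun y hy => h3 y (Metric.ball_subset_ball hr hy)⟩

private theorem sec_local (Φ : ℂ → ℂ) (hΦ : ContDiff ℝ ∞ Φ)
    (hinj : ∀ z v, fderiv ℝ Φ z v = 0 → v = 0) (z₀ : ℂ) :
    ∃ r > 0, ∃ U ∈ nhds z₀, ∀ z ∈ U, secP Φ r z := by
  have hst : HasStrictFDerivAt Φ (fderiv ℝ Φ z₀) z₀ :=
    hΦ.contDiffAt.hasStrictFDerivAt (by simp)
  have hinj' : Function.Injective ((fderiv ℝ Φ z₀ : ℂ →L[ℝ] ℂ) : ℂ →ₗ[ℝ] ℂ) := by
    rw [injective_iff_map_eq_zero]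
    exact fun v hv => hinj z₀ v hv
  set f' : ℂ ≃L[ℝ] ℂ :=
    (LinearEquiv.ofInjectiveEndo ((fderiv ℝ Φ z₀ : ℂ →L[ℝ] ℂ) : ℂ →ₗ[ℝ] ℂ)
      hinj').toContinuousLinearEquiv with hf'
  have hf'' : (f' : ℂ →L[ℝ] ℂ) = fderiv ℝ Φ z₀ := by
    ext v <;> rfl
  have hst' : HasStrictFDerivAt Φ (f' : ℂ →L[ℝ] ℂ) z₀ := by rw [hf'']; exact hst
  set e := hst'.toOpenPartialHomeomorph Φ with he
  have hcoe : (e : ℂ → ℂ) = Φ := hst'.toOpenPartialHomeomorph_coe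
  have hsrc : z₀ ∈ e.source := hst'.mem_toOpenPartialHomeomorph_source
  have htgt : Φ z₀ ∈ e.target := hst'.image_mem_toOpenPartialHomeomorph_target
  obtain ⟨ε, hε, hball⟩ := Metric.isOpen_iff.1 e.open_target _ htgt
  refine ⟨ε / 2, by positivity, e.source ∩ Φ ⁻¹' Metric.ball (Φ z₀) (ε / 2), ?_, ?_⟩
  · refine Filter.inter_mem (e.open_source.mem_nhds hsrc) ?_
    exact hΦ.continuous.continuousAt.preimage_mem_nhds (Metric.ball_mem_nhds _ (by positivity))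
  · rintro z ⟨hz1, hz2⟩
    have hsub : Metric.ball (Φ z) (ε / 2) ⊆ e.target := by
      intro y hy
      refine hball ?_
      rw [Set.mem_preimage] at hz2
      rw [Metric.mem_ball] at hy hz2 ⊢
      calc dist y (Φ z₀) ≤ dist y (Φ z) + dist (Φ z) (Φ z₀) := dist_triangle _ _ _
        _ < ε / 2 + ε / 2 := add_lt_add hy hz2
        _ = ε := by ring
    refine ⟨e.symm, e.continuousOn_symm.mono hsub, ?_, ?_⟩
    · have := e.left_inv hz1
      rwa [hcoe] at this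
    · intro y hy
      have := e.right_inv (hsub hy)
      rwa [hcoe] at this

private theorem sec_shift {Φ : ℂ → ℂ} {w₀ c : ℂ} (h : ∀ z, Φ (z + w₀) = Φ z + c) (m : ℤ) :
    ∀ z, Φ (z + m * w₀) = Φ z + m * c := by
  induction m using Int.induction_on with
  | zero => intro z; simp
  | succ m ih =>
    intro z
    have e : z + (((m : ℤ) + 1 : ℤ) : ℂ) * w₀ = (z + ((m : ℤ) : ℂ) * w₀) + w₀ := by push_cast; ring
    rw [e, h, ih]
    push_cast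
    ring
  | pred m ih =>
    intro z
    have e : (z + ((-(m : ℤ) - 1 : ℤ) : ℂ) * w₀) + w₀ = z + ((-(m : ℤ) : ℤ) : ℂ) * w₀ := by
      push_cast; ring
    have h1 := h (z + ((-(m : ℤ) - 1 : ℤ) : ℂ) * w₀)
    rw [e, ih] at h1
    have h2 : Φ (z + ((-(m : ℤ) - 1 : ℤ) : ℂ) * w₀) = Φ z + ((-(m : ℤ) : ℤ) : ℂ) * c - c := by
      rw [h1]; ring
    rw [h2]
    push_cast
    ring

private theorem sec_cell (L : Lat) (z : ℂ) : ∃ (m n : ℤ) (s t : ℝ), s ∈ Set.Icc (0 : ℝ) 1 ∧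
    t ∈ Set.Icc (0 : ℝ) 1 ∧ z = ((s : ℂ) * L.ω₁ + (t : ℂ) * L.ω₂) + (m * L.ω₁ + n * L.ω₂) := by
  set D : ℝ := L.ω₁.re * L.ω₂.im - L.ω₁.im * L.ω₂.re with hD
  have hD0 : D ≠ 0 := by
    have h := L.h
    rw [Complex.mul_im, Complex.conj_re, Complex.conj_im] at h
    intro h0
    apply h
    rw [hD] at h0
    linarith
  set s : ℝ := (z.re * L.ω₂.im - z.im * L.ω₂.re) / D with hs
  set t : ℝ := (L.ω₁.re * z.im - L.ω₁.im * z.re) / D with ht
  refine ⟨⌊s⌋, ⌊t⌋, Int.fract s, Int.fract t, ⟨Int.fract_nonneg _, (Int.fract_lt_one _).le⟩,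
    ⟨Int.fract_nonneg _, (Int.fract_lt_one _).le⟩, ?_⟩
  have h1 : z = (s : ℂ) * L.ω₁ + (t : ℂ) * L.ω₂ := by
    apply Complex.ext
    · simp only [Complex.add_re, Complex.mul_re, Complex.ofReal_re, Complex.ofReal_im, zero_mul,
        sub_zero]
      rw [hs, ht]
      field_simp
      rw [hD]
      ring
    · simp only [Complex.add_im, Complex.mul_im, Complex.ofReal_re, Complex.ofReal_im, zero_mul,
        add_zero]
      rw [hs, ht]
      field_simp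
      rw [hD]
      ring
  have h2 : (s : ℂ) = ((Int.fract s : ℝ) : ℂ) + ((⌊s⌋ : ℤ) : ℂ) := by
    have := Int.fract_add_floor s
    exact_mod_cast this.symm
  have h3 : (t : ℂ) = ((Int.fract t : ℝ) : ℂ) + ((⌊t⌋ : ℤ) : ℂ) := by
    have := Int.fract_add_floor t
    exact_mod_cast this.symm
  calc z = (s : ℂ) * L.ω₁ + (t : ℂ) * L.ω₂ := h1
    _ = _ := by rw [h2, h3]; push_cast; ring

theorem unif_section (L : Lat) (Φ : ℂ → ℂ) (hΦ : ContDiff ℝ ∞ Φ) (hinj : ∀ z v, fderiv ℝ Φ z v = 0 → v = 0)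
    (c₁ c₂ : ℂ) (h1 : ∀ z, Φ (z + L.ω₁) = Φ z + c₁) (h2 : ∀ z, Φ (z + L.ω₂) = Φ z + c₂) :
    ∃ r > 0, ∀ z, ∃ σ : ℂ → ℂ, ContinuousOn σ (Metric.ball (Φ z) r) ∧ σ (Φ z) = z ∧
      ∀ y ∈ Metric.ball (Φ z) r, Φ (σ y) = y := by
  set K : Set ℂ := (fun p : ℝ × ℝ => (p.1 : ℂ) * L.ω₁ + (p.2 : ℂ) * L.ω₂) ''
    (Set.Icc (0 : ℝ) 1 ×ˢ Set.Icc (0 : ℝ) 1) with hK
  have hKc : IsCompact K := (isCompact_Icc.prod isCompact_Icc).image (by fun_prop)
  have hmain : ∃ r > 0, ∀ z ∈ K, secP Φ r z := by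
    refine hKc.induction_on (p := fun s => ∃ r > 0, ∀ z ∈ s, secP Φ r z) ?_ ?_ ?_ ?_
    · exact ⟨1, one_pos, fun z hz => absurd hz (Set.notMem_empty z)⟩
    · rintro s t hst ⟨r, hr, h⟩
      exact ⟨r, hr, fun z hz => h z (hst hz)⟩
    · rintro s t ⟨r, hr, h⟩ ⟨r', hr', h'⟩
      refine ⟨min r r', lt_min hr hr', fun z hz => ?_⟩
      rcases hz with hz | hz
      · exact secP_mono (h z hz) (min_le_left _ _)
      · exact secP_mono (h' z hz) (min_le_right _ _)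
    · intro z₀ _
      obtain ⟨r, hr, U, hU, h⟩ := sec_local Φ hΦ hinj z₀
      exact ⟨U, mem_nhdsWithin_of_mem_nhds hU, r, hr, h⟩
  obtain ⟨r, hr, hrK⟩ := hmain
  refine ⟨r, hr, fun z => ?_⟩
  obtain ⟨m, n, s, t, hs, ht, hz⟩ := sec_cell L z
  set z' : ℂ := (s : ℂ) * L.ω₁ + (t : ℂ) * L.ω₂ with hz'
  obtain ⟨σ, hσ1, hσ2, hσ3⟩ := hrK z' ⟨(s, t), ⟨hs, ht⟩, rfl⟩
  have hsh : ∀ w, Φ (w + (m * L.ω₁ + n * L.ω₂)) = Φ w + (m * c₁ + n * c₂) := by
    intro w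
    rw [← add_assoc, sec_shift h2, sec_shift h1]
    ring
  have hΦz : Φ z = Φ z' + (m * c₁ + n * c₂) := by
    rw [hz, hsh]
  have hmem : ∀ y ∈ Metric.ball (Φ z) r, y - (m * c₁ + n * c₂) ∈ Metric.ball (Φ z') r := by
    intro y hy
    rw [Metric.mem_ball, dist_eq_norm] at hy ⊢
    rw [hΦz] at hy
    have e : y - (m * c₁ + n * c₂) - Φ z' = y - (Φ z' + (m * c₁ + n * c₂)) := by ring
    rw [e]
    exact hy
  refine ⟨fun y => σ (y - (m * c₁ + n * c₂)) + (m * L.ω₁ + n * L.ω₂), ?_, ?_, ?_⟩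
  · refine ContinuousOn.add ?_ continuousOn_const
    exact hσ1.comp (by fun_prop) hmem
  · simp only
    rw [hΦz, add_sub_cancel_right, hσ2, hz]
  · intro y hy
    simp only
    rw [hsh, hσ3 _ (hmem y hy)]
    ring

end P205T.U
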