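import Vale.Agent.P205U.Pos
import Vale.Agent.P205U.Comm

/-! Module STEP: one step of the iteration `F ↦ B P F + β`.
`N2_add`: `‖x+y‖² ≤ (1+η)‖x‖² + (1+1/η)‖y‖²` termwise.
`N2_Pop`: pointwise `‖(P F) n‖² ≤ ‖F n‖²` (`M11 = kx²/|k|²`, `M12 = kx ky/|k|²`, `M22 = ky²/|k|²`, zero at `n = 0`;
orthogonal projection), `P` commutes with the weights.
`step_succ`: with `H = P F`, `H'_i = wt^(s+1) H_i` (exists_lam),
`wt^(s+1) (B H) = B H' + commutator`, so `N2 (s+1) (B H) ≤ (1+η) N2 0 (B H') + (1+1/η) (4 C) N2 s H`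
`≤ (1+η) q² N2 (s+1) F + K N2 s F`; then add `β`.  Choose `η` with `(1+η)² q² ≤ q₁`. -/

open Complex ComplexConjugate
open scoped ContDiff

namespace P205T.U

theorem Step_wt_nonneg (L : Lat) (n : ℤ × ℤ) : 0 ≤ wt L n := by
  unfold wt
  positivity

theorem Step_summable (L : Lat) (s : ℕ) {F : V × V} (hF : RapidP L F) :
    Summable fun n => wt L n ^ (2 * s) * (‖F.1 n‖ ^ 2 + ‖F.2 n‖ ^ 2) := by
  have h := (summable_sq hF.1 s).add (summable_sq hF.2 s)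
  refine h.congr fun n => ?_
  ring

theorem N2_nonneg (L : Lat) (s : ℕ) (F : V × V) : 0 ≤ N2 L s F := by
  unfold N2
  refine tsum_nonneg fun n => ?_
  have := Step_wt_nonneg L n
  positivity

theorem Step_norm_add_sq (x y : ℂ) {η : ℝ} (hη : 0 < η) :
    ‖x + y‖ ^ 2 ≤ (1 + η) * ‖x‖ ^ 2 + (1 + 1 / η) * ‖y‖ ^ 2 := by
  have h1 : ‖x + y‖ ≤ ‖x‖ + ‖y‖ := norm_add_le x y
  have h2 : ‖x + y‖ ^ 2 ≤ (‖x‖ + ‖y‖) ^ 2 := pow_le_pow_left₀ (norm_nonneg _) h1 2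
  have h3 : 0 ≤ (η * ‖x‖ - ‖y‖) ^ 2 / η := by positivity
  have h4 : (η * ‖x‖ - ‖y‖) ^ 2 / η = η * ‖x‖ ^ 2 - 2 * ‖x‖ * ‖y‖ + 1 / η * ‖y‖ ^ 2 := by
    field_simp
    ring
  rw [h4] at h3
  nlinarith

theorem N2_add (L : Lat) (s : ℕ) {F G : V × V} (hF : RapidP L F) (hG : RapidP L G) {η : ℝ} (hη : 0 < η) :
    N2 L s (F + G) ≤ (1 + η) * N2 L s F + (1 + 1 / η) * N2 L s G := by
  have hFG : RapidP L (F + G) := ⟨rapid_add hF.1 hG.1, rapid_add hF.2 hG.2⟩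
  have s1 := Step_summable L s hF
  have s2 := Step_summable L s hG
  have s3 := Step_summable L s hFG
  unfold N2
  rw [← tsum_mul_left, ← tsum_mul_left, ← (s1.mul_left (1 + η)).tsum_add (s2.mul_left (1 + 1 / η))]
  refine s3.tsum_le_tsum (fun n => ?_) ((s1.mul_left (1 + η)).add (s2.mul_left (1 + 1 / η)))
  have e1 : (F + G).1 n = F.1 n + G.1 n := by
    rw [Prod.fst_add, lp.coeFn_add, Pi.add_apply]
  have e2 : (F + G).2 n = F.2 n + G.2 n := by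
    rw [Prod.snd_add, lp.coeFn_add, Pi.add_apply]
  rw [e1, e2]
  have h1 := Step_norm_add_sq (F.1 n) (G.1 n) hη
  have h2 := Step_norm_add_sq (F.2 n) (G.2 n) hη
  have hw : 0 ≤ wt L n ^ (2 * s) := pow_nonneg (Step_wt_nonneg L n) _
  have h3 := mul_le_mul_of_nonneg_left (add_le_add h1 h2) hw
  refine h3.trans (le_of_eq ?_)
  ring

theorem Step_Pop_fst (L : Lat) (F : V × V) (n : ℤ × ℤ) :
    (Pop L F).1 n = M11 L n * F.1 n + M12 L n * F.2 n := by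
  unfold Pop
  show (mult (M11 L) F.1 + mult (M12 L) F.2) n = _
  rw [lp.coeFn_add, Pi.add_apply, mult_apply (bdd_M11 L), mult_apply (bdd_M12 L)]

theorem Step_Pop_snd (L : Lat) (F : V × V) (n : ℤ × ℤ) :
    (Pop L F).2 n = M12 L n * F.1 n + M22 L n * F.2 n := by
  unfold Pop
  show (mult (M12 L) F.1 + mult (M22 L) F.2) n = _
  rw [lp.coeFn_add, Pi.add_apply, mult_apply (bdd_M12 L), mult_apply (bdd_M22 L)]

theorem Step_proj (x y : ℂ) (a b : ℝ) (hab : a ^ 2 + b ^ 2 = 1) :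
    ‖(a ^ 2 : ℝ) * x + (a * b : ℝ) * y‖ ^ 2 + ‖(a * b : ℝ) * x + (b ^ 2 : ℝ) * y‖ ^ 2
      ≤ ‖x‖ ^ 2 + ‖y‖ ^ 2 := by
  rw [Complex.sq_norm, Complex.sq_norm, Complex.sq_norm, Complex.sq_norm, Complex.normSq_apply,
    Complex.normSq_apply, Complex.normSq_apply, Complex.normSq_apply]
  simp only [Complex.add_re, Complex.add_im, Complex.mul_re, Complex.mul_im, Complex.ofReal_re,
    Complex.ofReal_im, zero_mul, sub_zero, add_zero]
  have key : ∀ u v : ℝ, (a ^ 2 * u + a * b * v) * (a ^ 2 * u + a * b * v)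
      + (a * b * u + b ^ 2 * v) * (a * b * u + b ^ 2 * v) = u * u + v * v - (b * u - a * v) ^ 2 := by
    intro u v
    have h1 : (a ^ 2 * u + a * b * v) * (a ^ 2 * u + a * b * v)
      + (a * b * u + b ^ 2 * v) * (a * b * u + b ^ 2 * v)
      = (a ^ 2 + b ^ 2) * (a * u + b * v) ^ 2 := by ring
    have h2 : u * u + v * v - (b * u - a * v) ^ 2
      = (u ^ 2 + v ^ 2) - ((a ^ 2 + b ^ 2) * (u ^ 2 + v ^ 2) - (a * u + b * v) ^ 2) := by ring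
    rw [h1, h2, hab]
    ring
  have k1 := key x.re y.re
  have k2 := key x.im y.im
  have p1 := sq_nonneg (b * x.re - a * y.re)
  have p2 := sq_nonneg (b * x.im - a * y.im)
  linarith

theorem Step_Pop_pt (L : Lat) (F : V × V) (n : ℤ × ℤ) :
    ‖(Pop L F).1 n‖ ^ 2 + ‖(Pop L F).2 n‖ ^ 2 ≤ ‖F.1 n‖ ^ 2 + ‖F.2 n‖ ^ 2 := by
  rw [Step_Pop_fst, Step_Pop_snd]
  by_cases hn : n = 0
  · have h11 : M11 L n = 0 := by unfold M11 M1 M0; simp [hn]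
    have h12 : M12 L n = 0 := by unfold M12 M2 M0; simp [hn]
    have h22 : M22 L n = 0 := by unfold M22 M2 M0; simp [hn]
    rw [h11, h12, h22]
    have h0 : 0 ≤ ‖F.1 n‖ ^ 2 + ‖F.2 n‖ ^ 2 := by positivity
    have h1 : ‖(0 : ℂ) * F.1 n + 0 * F.2 n‖ ^ 2 + ‖(0 : ℂ) * F.1 n + 0 * F.2 n‖ ^ 2 = 0 := by
      rw [zero_mul, zero_mul, add_zero, norm_zero]
      norm_num
    rw [h1]
    exact h0
  · have hk := kk_pos L hn
    have hs : 0 < √(kx L n ^ 2 + ky L n ^ 2) := Real.sqrt_pos.2 hk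
    have hsq : √(kx L n ^ 2 + ky L n ^ 2) ^ 2 = kx L n ^ 2 + ky L n ^ 2 := Real.sq_sqrt hk.le
    have hab : (kx L n / √(kx L n ^ 2 + ky L n ^ 2)) ^ 2
        + (ky L n / √(kx L n ^ 2 + ky L n ^ 2)) ^ 2 = 1 := by
      rw [div_pow, div_pow, hsq, ← add_div, div_self hk.ne']
    have hI : Complex.I * Complex.I = -1 := Complex.I_mul_I
    have h11 : M11 L n = (((kx L n / √(kx L n ^ 2 + ky L n ^ 2)) ^ 2 : ℝ) : ℂ) := by
      rw [div_pow, hsq]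
      unfold M11 M1
      rw [WM_M0_ne L hn]
      push_cast
      linear_combination ((kx L n : ℂ) * (kx L n : ℂ) * (-1 / ((kx L n : ℂ) ^ 2 + (ky L n : ℂ) ^ 2))) * hI
    have h12 : M12 L n = ((kx L n / √(kx L n ^ 2 + ky L n ^ 2)
        * (ky L n / √(kx L n ^ 2 + ky L n ^ 2)) : ℝ) : ℂ) := by
      rw [div_mul_div_comm, ← sq (√(kx L n ^ 2 + ky L n ^ 2)), hsq]
      unfold M12 M2
      rw [WM_M0_ne L hn]
      push_cast
      linear_combination ((kx L n : ℂ) * (ky L n : ℂ) * (-1 / ((kx L n : ℂ) ^ 2 + (ky L n : ℂ) ^ 2))) * hI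
    have h22 : M22 L n = (((ky L n / √(kx L n ^ 2 + ky L n ^ 2)) ^ 2 : ℝ) : ℂ) := by
      rw [div_pow, hsq]
      unfold M22 M2
      rw [WM_M0_ne L hn]
      push_cast
      linear_combination ((ky L n : ℂ) * (ky L n : ℂ) * (-1 / ((kx L n : ℂ) ^ 2 + (ky L n : ℂ) ^ 2))) * hI
    rw [h11, h12, h22]
    exact Step_proj (F.1 n) (F.2 n) _ _ hab

theorem rapid_Pop {L : Lat} {F : V × V} (hF : RapidP L F) : RapidP L (Pop L F) :=
  ⟨rapid_add (rapid_mult hF.1 (bdd_M11 L)) (rapid_mult hF.2 (bdd_M12 L)),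
    rapid_add (rapid_mult hF.1 (bdd_M12 L)) (rapid_mult hF.2 (bdd_M22 L))⟩

theorem N2_Pop (L : Lat) (s : ℕ) {F : V × V} (hF : RapidP L F) : N2 L s (Pop L F) ≤ N2 L s F := by
  unfold N2
  refine (Step_summable L s (rapid_Pop hF)).tsum_le_tsum (fun n => ?_) (Step_summable L s hF)
  exact mul_le_mul_of_nonneg_left (Step_Pop_pt L F n) (pow_nonneg (Step_wt_nonneg L n) _)

theorem rapid_Bop {L : Lat} {b11 b12 b22 : V} {q : ℝ} (hb : BData L b11 b12 b22 q) {F : V × V}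
    (hF : RapidP L F) : RapidP L (Bop b11 b12 b22 F) :=
  ⟨rapid_add (rapid_conv hb.r11 hF.1) (rapid_conv hb.r12 hF.2),
    rapid_add (rapid_conv hb.r12 hF.1) (rapid_conv hb.r22 hF.2)⟩

theorem STEP2_eta {q q₁ : ℝ} (hq : q ^ 2 < q₁) : ∃ η : ℝ, 0 < η ∧ (1 + η) * q ^ 2 ≤ q₁ ∧
    (1 + η) * ((1 + η) * q ^ 2) ≤ q₁ := by
  set δ := q₁ - q ^ 2 with hδ
  have hδ0 : 0 < δ := by linarith
  have hd : 0 < 3 * q ^ 2 + 1 := by positivity
  refine ⟨min 1 (δ / (3 * q ^ 2 + 1)), lt_min one_pos (by positivity), ?_⟩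
  set η := min 1 (δ / (3 * q ^ 2 + 1)) with hη
  have h1 : η ≤ 1 := min_le_left _ _
  have h2 : η ≤ δ / (3 * q ^ 2 + 1) := min_le_right _ _
  have h0 : 0 < η := lt_min one_pos (by positivity)
  rw [le_div_iff₀ hd] at h2
  have h3 : 0 ≤ q ^ 2 := sq_nonneg q
  have h4 : η * (3 * q ^ 2) ≤ δ := by nlinarith
  constructor
  · nlinarith
  · have h5 : η * (η * q ^ 2) ≤ 1 * (η * q ^ 2) := mul_le_mul_of_nonneg_right h1 (by positivity)
    nlinarith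

theorem STEP2_comm {L : Lat} {b : V} (hb : Rapid L b) (s : ℕ) :
    ∃ C : ℝ, 0 ≤ C ∧ ∀ H H' : V, Rapid L H → (∀ n, H' n = ((wt L n ^ (s + 1) : ℝ) : ℂ) * H n) →
      ∃ c : V, (∀ n, ((wt L n ^ (s + 1) : ℝ) : ℂ) * conv b H n = conv b H' n + c n) ∧
      ∑' n, ‖c n‖ ^ 2 ≤ C * ∑' n, wt L n ^ (2 * s) * ‖H n‖ ^ 2 := by
  obtain ⟨C, hC, hcomm⟩ := comm_bound L hb s
  refine ⟨C, hC, fun H H' hH hH' => ?_⟩
  obtain ⟨G, -, hG⟩ := exists_lam (rapid_conv hb hH) (s + 1)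
  refine ⟨G - conv b H', fun n => ?_, ?_⟩
  · have e : (G - conv b H') n = G n - conv b H' n := rfl
    rw [e, hG n]
    ring
  · have h := hcomm H H' hH hH'
    refine le_trans (le_of_eq ?_) h
    refine tsum_congr fun n => ?_
    have e : (G - conv b H') n = G n - conv b H' n := rfl
    rw [e, hG n]

theorem step_zero {L : Lat} {b11 b12 b22 : V} {q : ℝ} (hb : BData L b11 b12 b22 q) {β : V × V}
    (hβ : RapidP L β) {q₁ : ℝ} (hq : q ^ 2 < q₁) :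
    ∃ K : ℝ, 0 ≤ K ∧ ∀ F, RapidP L F → N2 L 0 (Bop b11 b12 b22 (Pop L F) + β) ≤ q₁ * N2 L 0 F + K := by
  obtain ⟨η, hη, h1, -⟩ := STEP2_eta hq
  refine ⟨(1 + 1 / η) * N2 L 0 β, mul_nonneg (by positivity) (N2_nonneg L 0 β), fun F hF => ?_⟩
  have hP := rapid_Pop hF
  have hB := rapid_Bop hb hP
  have h2 := N2_add L 0 hB hβ hη
  have h3 := l2_contract L hb (Pop L F)
  have h4 := N2_Pop L 0 hF
  have h5 : (1 + η) * N2 L 0 (Bop b11 b12 b22 (Pop L F)) ≤ (1 + η) * (q ^ 2 * N2 L 0 F) :=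
    mul_le_mul_of_nonneg_left (h3.trans (mul_le_mul_of_nonneg_left h4 (sq_nonneg q))) (by positivity)
  have h6 : (1 + η) * (q ^ 2 * N2 L 0 F) ≤ q₁ * N2 L 0 F := by
    rw [← mul_assoc]
    exact mul_le_mul_of_nonneg_right h1 (N2_nonneg L 0 F)
  linarith

theorem STEP2_comp (L : Lat) (s : ℕ) {F : V × V} (hF : RapidP L F) :
    ∑' n, wt L n ^ (2 * s) * ‖F.1 n‖ ^ 2 ≤ N2 L s F ∧
      ∑' n, wt L n ^ (2 * s) * ‖F.2 n‖ ^ 2 ≤ N2 L s F := by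
  have h := Step_summable L s hF
  unfold N2
  constructor
  · refine (summable_sq hF.1 s).tsum_le_tsum (fun n => ?_) h
    have hw : 0 ≤ wt L n ^ (2 * s) := pow_nonneg (Step_wt_nonneg L n) _
    refine mul_le_mul_of_nonneg_left ?_ hw
    have := sq_nonneg ‖F.2 n‖
    linarith
  · refine (summable_sq hF.2 s).tsum_le_tsum (fun n => ?_) h
    have hw : 0 ≤ wt L n ^ (2 * s) := pow_nonneg (Step_wt_nonneg L n) _
    refine mul_le_mul_of_nonneg_left ?_ hw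
    have := sq_nonneg ‖F.1 n‖
    linarith

theorem STEP2_wsq (L : Lat) (s : ℕ) (x : ℂ) (n : ℤ × ℤ) :
    ‖((wt L n ^ s : ℝ) : ℂ) * x‖ ^ 2 = wt L n ^ (2 * s) * ‖x‖ ^ 2 := by
  rw [norm_mul, Complex.norm_real, Real.norm_eq_abs,
    abs_of_nonneg (pow_nonneg (Step_wt_nonneg L n) s), mul_pow, ← pow_mul, mul_comm s 2]

theorem STEP2_sq2 (x y : ℂ) : ‖x + y‖ ^ 2 ≤ 2 * ‖x‖ ^ 2 + 2 * ‖y‖ ^ 2 := by
  have := Step_norm_add_sq x y one_pos
  norm_num at this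
  linarith

theorem step_succ {L : Lat} {b11 b12 b22 : V} {q : ℝ} (hb : BData L b11 b12 b22 q) {β : V × V}
    (hβ : RapidP L β) {q₁ : ℝ} (hq : q ^ 2 < q₁) (s : ℕ) :
    ∃ K : ℝ, 0 ≤ K ∧ ∀ F, RapidP L F →
      N2 L (s + 1) (Bop b11 b12 b22 (Pop L F) + β) ≤ q₁ * N2 L (s + 1) F + K * (N2 L s F + 1) := by
  obtain ⟨η, hη, -, h1⟩ := STEP2_eta hq
  obtain ⟨C1, hC1, c1⟩ := STEP2_comm hb.r11 s
  obtain ⟨C2, hC2, c2⟩ := STEP2_comm hb.r12 s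
  obtain ⟨C3, hC3, c3⟩ := STEP2_comm hb.r22 s
  set K1 : ℝ := (1 + 1 / η) * (2 * (C1 + C2 + C2 + C3)) with hK1
  have hK10 : 0 ≤ K1 := by positivity
  set K2 : ℝ := (1 + 1 / η) * N2 L (s + 1) β with hK2
  have hK20 : 0 ≤ K2 := mul_nonneg (by positivity) (N2_nonneg L (s + 1) β)
  refine ⟨(1 + η) * K1 + K2, by positivity, fun F hF => ?_⟩
  have hP := rapid_Pop hF
  have hB := rapid_Bop hb hP
  set H := Pop L F with hH
  obtain ⟨H1, hH1r, hH1⟩ := exists_lam hP.1 (s + 1)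
  obtain ⟨H2, hH2r, hH2⟩ := exists_lam hP.2 (s + 1)
  obtain ⟨d11, e11, b11'⟩ := c1 H.1 H1 hP.1 hH1
  obtain ⟨d12, e12, b12'⟩ := c2 H.2 H2 hP.2 hH2
  obtain ⟨d21, e21, b21'⟩ := c2 H.1 H1 hP.1 hH1
  obtain ⟨d22, e22, b22'⟩ := c3 H.2 H2 hP.2 hH2
  have hcomp := STEP2_comp L s hP
  -- the main estimate
  have hmain : N2 L (s + 1) (Bop b11 b12 b22 H) ≤
      (1 + η) * N2 L 0 (Bop b11 b12 b22 (H1, H2)) + (1 + 1 / η) * (2 * (∑' n, ‖d11 n‖ ^ 2 +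
        ∑' n, ‖d12 n‖ ^ 2 + ∑' n, ‖d21 n‖ ^ 2 + ∑' n, ‖d22 n‖ ^ 2)) := by
    have hr' : RapidP L ((H1, H2) : V × V) := ⟨hH1r, hH2r⟩
    have s0 := Step_summable L 0 (rapid_Bop hb hr')
    have t1 := summable_sq0 d11
    have t2 := summable_sq0 d12
    have t3 := summable_sq0 d21
    have t4 := summable_sq0 d22
    have sL := Step_summable L (s + 1) hB
    have s5 := ((t1.add t2).add t3).add t4
    unfold N2
    rw [← t1.tsum_add t2, ← (t1.add t2).tsum_add t3, ← ((t1.add t2).add t3).tsum_add t4,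
      ← tsum_mul_left, ← tsum_mul_left, ← tsum_mul_left,
      ← (s0.mul_left (1 + η)).tsum_add ((s5.mul_left 2).mul_left (1 + 1 / η))]
    refine sL.tsum_le_tsum (fun n => ?_)
      ((s0.mul_left (1 + η)).add ((s5.mul_left 2).mul_left (1 + 1 / η)))
    have g1 : (Bop b11 b12 b22 H).1 n = conv b11 H.1 n + conv b12 H.2 n := rfl
    have g2 : (Bop b11 b12 b22 H).2 n = conv b12 H.1 n + conv b22 H.2 n := rfl
    have g3 : (Bop b11 b12 b22 (H1, H2)).1 n = conv b11 H1 n + conv b12 H2 n := rfl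
    have g4 : (Bop b11 b12 b22 (H1, H2)).2 n = conv b12 H1 n + conv b22 H2 n := rfl
    have w1 : ((wt L n ^ (s + 1) : ℝ) : ℂ) * (Bop b11 b12 b22 H).1 n =
        (Bop b11 b12 b22 (H1, H2)).1 n + (d11 n + d12 n) := by
      rw [g1, g3, mul_add, e11 n, e12 n]
      ring
    have w2 : ((wt L n ^ (s + 1) : ℝ) : ℂ) * (Bop b11 b12 b22 H).2 n =
        (Bop b11 b12 b22 (H1, H2)).2 n + (d21 n + d22 n) := by
      rw [g2, g4, mul_add, e21 n, e22 n]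
      ring
    rw [mul_add, ← STEP2_wsq, ← STEP2_wsq, w1, w2]
    have u1 := Step_norm_add_sq ((Bop b11 b12 b22 (H1, H2)).1 n) (d11 n + d12 n) hη
    have u2 := Step_norm_add_sq ((Bop b11 b12 b22 (H1, H2)).2 n) (d21 n + d22 n) hη
    have u3 := STEP2_sq2 (d11 n) (d12 n)
    have u4 := STEP2_sq2 (d21 n) (d22 n)
    have u5 : (1 + 1 / η) * (‖d11 n + d12 n‖ ^ 2 + ‖d21 n + d22 n‖ ^ 2) ≤
        (1 + 1 / η) * (2 * (‖d11 n‖ ^ 2 + ‖d12 n‖ ^ 2 + ‖d21 n‖ ^ 2 + ‖d22 n‖ ^ 2)) :=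
      mul_le_mul_of_nonneg_left (by linarith) (by positivity)
    rw [mul_zero, pow_zero, one_mul]
    linarith
  have h2 := N2_add L (s + 1) hB hβ hη
  have h3 := l2_contract L hb ((H1, H2) : V × V)
  have h4 : N2 L 0 ((H1, H2) : V × V) = N2 L (s + 1) H := by
    unfold N2
    refine tsum_congr fun n => ?_
    have g1 : ((H1, H2) : V × V).1 n = ((wt L n ^ (s + 1) : ℝ) : ℂ) * H.1 n := hH1 n
    have g2 : ((H1, H2) : V × V).2 n = ((wt L n ^ (s + 1) : ℝ) : ℂ) * H.2 n := hH2 n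
    rw [g1, g2, STEP2_wsq, STEP2_wsq, mul_zero, pow_zero, one_mul]
    ring
  rw [h4] at h3
  have h5 := N2_Pop L (s + 1) hF
  have h6 := N2_Pop L s hF
  have h7 : ∑' n, ‖d11 n‖ ^ 2 + ∑' n, ‖d12 n‖ ^ 2 + ∑' n, ‖d21 n‖ ^ 2 + ∑' n, ‖d22 n‖ ^ 2 ≤
      (C1 + C2 + C2 + C3) * N2 L s F := by
    have k1 := b11'.trans (mul_le_mul_of_nonneg_left (hcomp.1.trans h6) hC1)
    have k2 := b12'.trans (mul_le_mul_of_nonneg_left (hcomp.2.trans h6) hC2)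
    have k3 := b21'.trans (mul_le_mul_of_nonneg_left (hcomp.1.trans h6) hC2)
    have k4 := b22'.trans (mul_le_mul_of_nonneg_left (hcomp.2.trans h6) hC3)
    linarith
  have h8 : N2 L (s + 1) (Bop b11 b12 b22 H) ≤ (1 + η) * (q ^ 2 * N2 L (s + 1) F) +
      K1 * N2 L s F := by
    have k1 : (1 + η) * N2 L 0 (Bop b11 b12 b22 (H1, H2)) ≤ (1 + η) * (q ^ 2 * N2 L (s + 1) F) :=
      mul_le_mul_of_nonneg_left (h3.trans (mul_le_mul_of_nonneg_left h5 (sq_nonneg q)))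
        (by positivity)
    have k2 : (1 + 1 / η) * (2 * (∑' n, ‖d11 n‖ ^ 2 +
        ∑' n, ‖d12 n‖ ^ 2 + ∑' n, ‖d21 n‖ ^ 2 + ∑' n, ‖d22 n‖ ^ 2)) ≤
        (1 + 1 / η) * (2 * ((C1 + C2 + C2 + C3) * N2 L s F)) :=
      mul_le_mul_of_nonneg_left (by linarith) (by positivity)
    have k3 : (1 + 1 / η) * (2 * ((C1 + C2 + C2 + C3) * N2 L s F)) = K1 * N2 L s F := by
      rw [hK1]
      ring
    linarith
  have hN0 := N2_nonneg L s F
  have hN1 := N2_nonneg L (s + 1) F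
  have h9 : (1 + η) * N2 L (s + 1) (Bop b11 b12 b22 H) ≤
      (1 + η) * ((1 + η) * (q ^ 2 * N2 L (s + 1) F) + K1 * N2 L s F) :=
    mul_le_mul_of_nonneg_left h8 (by positivity)
  have h10 : (1 + η) * ((1 + η) * (q ^ 2 * N2 L (s + 1) F)) ≤ q₁ * N2 L (s + 1) F := by
    have : (1 + η) * ((1 + η) * (q ^ 2 * N2 L (s + 1) F)) =
        ((1 + η) * ((1 + η) * q ^ 2)) * N2 L (s + 1) F := by ring
    rw [this]
    exact mul_le_mul_of_nonneg_right h1 hN1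
  have h11 : 0 ≤ (1 + η) * K1 := by positivity
  have h12 : 0 ≤ K2 * N2 L s F := mul_nonneg hK20 hN0
  nlinarith

end P205T.U
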