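import Vale.Agent.P205T.Final
import Vale.Agent.P205U.Conf
import Vale.Agent.P205U.Hol
import Vale.Agent.P205U.Glob

/-! Module UNI: uniformization of a Riemannian torus.  `exists_flat`, then `P205T.coframe` and `P205T.develop` for
`E' = exp(2v) E` etc. (`θ = thx, thy`; smooth and periodic), `‖θx v.re + θy v.im‖² = E' v.re² + 2F' v.re v.im + G' v.im²`;
`hol_trivial` with `u_j = exp(i α(ω_j))`; `global_inverse`, `indep`. -/

open Complex ComplexConjugate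
open scoped ContDiff

namespace P205T.U

theorem UNI_norm {E F G : ℝ} (hE : 0 < E) (hD : 0 < E * G - F ^ 2) (a b : ℝ) :
    ‖((√E : ℝ) : ℂ) * (a : ℂ) + ((F : ℂ) + Complex.I * ((√(E * G - F ^ 2) : ℝ) : ℂ))
      / ((√E : ℝ) : ℂ) * (b : ℂ)‖ ^ 2 = E * a ^ 2 + 2 * F * a * b + G * b ^ 2 := by
  have s0 : 0 < √E := Real.sqrt_pos.2 hE
  have s2 : √E ^ 2 = E := Real.sq_sqrt hE.le
  have D2 : √(E * G - F ^ 2) ^ 2 = E * G - F ^ 2 := Real.sq_sqrt hD.le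
  have e1 : ((√E : ℝ) : ℂ) * (a : ℂ) + ((F : ℂ) + Complex.I * ((√(E * G - F ^ 2) : ℝ) : ℂ))
      / ((√E : ℝ) : ℂ) * (b : ℂ)
      = ((√E * a + F / √E * b : ℝ) : ℂ) + ((√(E * G - F ^ 2) / √E * b : ℝ) : ℂ) * Complex.I := by
    push_cast
    ring
  rw [e1, ← Complex.normSq_eq_norm_sq, Complex.normSq_add_mul_I]
  have e2 : (√E * a + F / √E * b) ^ 2 + (√(E * G - F ^ 2) / √E * b) ^ 2
      = √E ^ 2 * a ^ 2 + 2 * F * a * b + (F ^ 2 + √(E * G - F ^ 2) ^ 2) / √E ^ 2 * b ^ 2 := by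
    field_simp
    ring
  rw [e2, D2, s2]
  field_simp
  ring

theorem UNI_thx_contDiff {E : ℂ → ℝ} (hE : ContDiff ℝ ∞ E) (hE0 : ∀ z, 0 < E z) :
    ContDiff ℝ ∞ (thx E) := by
  have h1 : ContDiff ℝ ∞ fun z => √(E z) := hE.sqrt fun z => (hE0 z).ne'
  exact Complex.ofRealCLM.contDiff.comp h1

theorem UNI_thy_contDiff {E F G : ℂ → ℝ} (hE : ContDiff ℝ ∞ E) (hF : ContDiff ℝ ∞ F)
    (hG : ContDiff ℝ ∞ G) (hE0 : ∀ z, 0 < E z) (hD : ∀ z, 0 < E z * G z - F z ^ 2) :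
    ContDiff ℝ ∞ (thy E F G) := by
  have h1 : ContDiff ℝ ∞ fun z => √(E z) := hE.sqrt fun z => (hE0 z).ne'
  have h2 : ContDiff ℝ ∞ fun z => √(E z * G z - F z ^ 2) :=
    ((hE.mul hG).sub (hF.pow 2)).sqrt fun z => (hD z).ne'
  have h3 : ContDiff ℝ ∞ fun z => F z / √(E z) := hF.div h1 fun z => (Real.sqrt_pos.2 (hE0 z)).ne'
  have h4 : ContDiff ℝ ∞ fun z => √(E z * G z - F z ^ 2) / √(E z) :=
    h2.div h1 fun z => (Real.sqrt_pos.2 (hE0 z)).ne'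
  have h5 : ContDiff ℝ ∞ fun z => ((F z / √(E z) : ℝ) : ℂ)
      + Complex.I * ((√(E z * G z - F z ^ 2) / √(E z) : ℝ) : ℂ) :=
    (Complex.ofRealCLM.contDiff.comp h3).add
      (contDiff_const.mul (Complex.ofRealCLM.contDiff.comp h4))
  have h6 : thy E F G = fun z => ((F z / √(E z) : ℝ) : ℂ)
      + Complex.I * ((√(E z * G z - F z ^ 2) / √(E z) : ℝ) : ℂ) := by
    funext z
    unfold thy
    push_cast
    ring
  rw [h6]
  exact h5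

theorem UNI_thx_per {L : Lat} {E : ℂ → ℝ} (pE : Per L E) : Per L (thx E) := by
  refine ⟨fun z => ?_, fun z => ?_⟩
  · unfold thx
    rw [pE.1]
  · unfold thx
    rw [pE.2]

theorem UNI_thy_per {L : Lat} {E F G : ℂ → ℝ} (pE : Per L E) (pF : Per L F) (pG : Per L G) :
    Per L (thy E F G) := by
  refine ⟨fun z => ?_, fun z => ?_⟩
  · unfold thy
    rw [pE.1, pF.1, pG.1]
  · unfold thy
    rw [pE.2, pF.2, pG.2]

theorem UNI_posdef {E F G : ℝ} (hE : 0 < E) (hD : 0 < E * G - F ^ 2) {a b : ℝ}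
    (h : E * a ^ 2 + 2 * F * a * b + G * b ^ 2 = 0) : a = 0 ∧ b = 0 := by
  have h1 : (E * a + F * b) ^ 2 + (E * G - F ^ 2) * b ^ 2 = 0 := by
    have : (E * a + F * b) ^ 2 + (E * G - F ^ 2) * b ^ 2
        = E * (E * a ^ 2 + 2 * F * a * b + G * b ^ 2) := by ring
    rw [this, h, mul_zero]
  have hb2 : (E * G - F ^ 2) * b ^ 2 = 0 := by
    have h2 : 0 ≤ (E * a + F * b) ^ 2 := sq_nonneg _
    have h3 : 0 ≤ (E * G - F ^ 2) * b ^ 2 := by positivity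
    linarith
  have hb : b = 0 := by
    rcases mul_eq_zero.mp hb2 with h4 | h4
    · exact absurd h4 hD.ne'
    · exact eq_zero_of_pow_eq_zero h4
  rw [hb] at h1
  have h5 : (E * a) ^ 2 = 0 := by
    have : (E * a + F * 0) ^ 2 + (E * G - F ^ 2) * 0 ^ 2 = (E * a) ^ 2 := by ring
    rw [← this]
    exact h1
  have h6 : E * a = 0 := eq_zero_of_pow_eq_zero h5
  rcases mul_eq_zero.mp h6 with h7 | h7
  · exact absurd h7 hE.ne'
  · exact ⟨h7, hb⟩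

theorem uniformization (L : Lat) (E F G : ℂ → ℝ) (hE : ContDiff ℝ ∞ E) (hF : ContDiff ℝ ∞ F)
    (hG : ContDiff ℝ ∞ G) (pE : Per L E) (pF : Per L F) (pG : Per L G) (hE0 : ∀ z, 0 < E z)
    (hD : ∀ z, 0 < E z * G z - F z ^ 2) :
    ∃ v : ℂ → ℝ, ContDiff ℝ ∞ v ∧ Per L v ∧ ∃ Z Ψ : ℂ → ℂ, ContDiff ℝ ∞ Z ∧ ContDiff ℝ ∞ Ψ ∧
      (∀ z, Ψ (Z z) = z) ∧ (∀ y, Z (Ψ y) = y) ∧
      (∃ c₁ c₂ : ℂ, (conj c₁ * c₂).im ≠ 0 ∧ (∀ z, Z (z + L.ω₁) = Z z + c₁) ∧ ∀ z, Z (z + L.ω₂) = Z z + c₂) ∧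
      ∀ z u, ‖fderiv ℝ Z z u‖ ^ 2
        = Real.exp (2 * v z) * (E z * u.re ^ 2 + 2 * F z * u.re * u.im + G z * u.im ^ 2) := by
  obtain ⟨v, hv, pv, hcl⟩ := exists_flat L E F G hE hF hG pE pF pG hE0 hD
  have hexp : ContDiff ℝ ∞ fun z => Real.exp (2 * v z) := (contDiff_const.mul hv).exp
  set E' : ℂ → ℝ := fun z => Real.exp (2 * v z) * E z with hE'
  set F' : ℂ → ℝ := fun z => Real.exp (2 * v z) * F z with hF'
  set G' : ℂ → ℝ := fun z => Real.exp (2 * v z) * G z with hG'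
  have cE : ContDiff ℝ ∞ E' := hexp.mul hE
  have cF : ContDiff ℝ ∞ F' := hexp.mul hF
  have cG : ContDiff ℝ ∞ G' := hexp.mul hG
  have qE : Per L E' := ⟨fun z => by rw [hE']; simp only [pv.1, pE.1],
    fun z => by rw [hE']; simp only [pv.2, pE.2]⟩
  have qF : Per L F' := ⟨fun z => by rw [hF']; simp only [pv.1, pF.1],
    fun z => by rw [hF']; simp only [pv.2, pF.2]⟩
  have qG : Per L G' := ⟨fun z => by rw [hG']; simp only [pv.1, pG.1],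
    fun z => by rw [hG']; simp only [pv.2, pG.2]⟩
  have E0 : ∀ z, 0 < E' z := fun z => mul_pos (Real.exp_pos _) (hE0 z)
  have D0 : ∀ z, 0 < E' z * G' z - F' z ^ 2 := by
    intro z
    have e1 : E' z * G' z - F' z ^ 2 = Real.exp (2 * v z) ^ 2 * (E z * G z - F z ^ 2) := by
      rw [hE', hF', hG']
      ring
    rw [e1]
    exact mul_pos (pow_pos (Real.exp_pos _) 2) (hD z)
  obtain ⟨cO1, cO2⟩ := contDiff_Om E' F' G' cE cF cG E0 D0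
  obtain ⟨pO1, pO2⟩ := per_Om L E' F' G' qE qF qG
  obtain ⟨α, Z, hα, hZ, hα0, hZ0, hαd, hZd, hα1, hα2, hZ1, hZ2⟩ := develop L (Om1 E' F' G')
    (Om2 E' F' G') (thx E') (thy E' F' G') cO1 cO2 (UNI_thx_contDiff cE E0)
    (UNI_thy_contDiff cE cF cG E0 D0) pO1 pO2 (UNI_thx_per qE) (UNI_thy_per qE qF qG) hcl
    (coframe E' F' G' cE cF cG E0 D0)
  have hnorm : ∀ z u, ‖fderiv ℝ Z z u‖ ^ 2
      = E' z * u.re ^ 2 + 2 * F' z * u.re * u.im + G' z * u.im ^ 2 := by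
    intro z u
    rw [hZd, norm_mul, Complex.norm_exp_I_mul_ofReal, one_mul]
    exact UNI_norm (E0 z) (D0 z) u.re u.im
  have hinj : ∀ z u, fderiv ℝ Z z u = 0 → u = 0 := by
    intro z u hu
    have h1 := hnorm z u
    rw [hu, norm_zero, zero_pow two_ne_zero] at h1
    obtain ⟨h2, h3⟩ := UNI_posdef (E0 z) (D0 z) h1.symm
    exact Complex.ext h2 h3
  obtain ⟨hu1, hu2⟩ := hol_trivial L Z hZ hinj _ _ _ _ (Complex.norm_exp_I_mul_ofReal _)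
    (Complex.norm_exp_I_mul_ofReal _) hZ1 hZ2
  have hZ1' : ∀ z, Z (z + L.ω₁) = Z z + Z L.ω₁ := by
    intro z
    rw [hZ1, hu1, one_mul]
  have hZ2' : ∀ z, Z (z + L.ω₂) = Z z + Z L.ω₂ := by
    intro z
    rw [hZ2, hu2, one_mul]
  obtain ⟨Ψ, hΨ, hl, hr⟩ := global_inverse L Z hZ hinj _ _ hZ1' hZ2'
  have hind := indep L Z hZ.continuous (fun y => ⟨Ψ y, hr y⟩) _ _ hZ1' hZ2'
  refine ⟨v, hv, pv, Z, Ψ, hZ, hΨ, hl, hr, ⟨Z L.ω₁, Z L.ω₂, hind, hZ1', hZ2'⟩, fun z u => ?_⟩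
  rw [hnorm]
  rw [hE', hF', hG']
  ring

end P205T.U
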